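import Mathlib
import Vale.Agent.H68.Simplex
import Vale.Agent.H68.Moment
import Vale.Agent.H68.IsoRatio

/-!
# P254: prisms over a simplex with parallel edges, every dimension (architect: helper51)

`K = conv{v 1, ..., v n, v i + h i • (v 0 - v 1)}`: the prism over the `(n-1)`-simplex
`conv{v 1, ..., v n}` whose `n` parallel edges have direction `v 0 - v 1` and lengths
proportional to `h i > 0`.  Goal: `L_K < L_simplex` for every `n ≥ 2` (file `Main.lean`).
See `PLAN.md` in this folder.  Coordinates of the cone over `K`: index `0` is the height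
coordinate `z`, index `i.succ` is the base coordinate `u i`.
-/

namespace Vale.Agent.H51.Prism

open Matrix Vale.Agent.H68

variable {n : ℕ}

/-- the `2n` vertices of the prism: `v 1, ..., v n` and the points `v (i+1) + h i • (v 0 - v 1)` -/
def prismPts (v : Fin (n + 1) → Fin n → ℝ) (h : Fin n → ℝ) : Fin (n + n) → Fin n → ℝ :=
  Fin.append (fun i => v i.succ) (fun i => v i.succ + h i • (v 0 - v 1))

/-- the matrix with columns `lift (v 0) - lift (v 1) = (0, v 0 - v 1)` and `lift (v (j+1))` -/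
def prismW (v : Fin (n + 1) → Fin n → ℝ) : Matrix (Fin (n + 1)) (Fin (n + 1)) ℝ :=
  Matrix.of fun a b =>
    Fin.cases (motive := fun _ => ℝ) (liftMat v a 0 - liftMat v a 1) (fun j => liftMat v a j.succ) b

/-- the cone over the prism in the coordinates `(z, u)`: `u ≥ 0` and `0 ≤ z ≤ ∑ h i * u i` -/
def Om (h : Fin n → ℝ) : Set (Fin (n + 1) → ℝ) :=
  {s | (∀ i : Fin n, 0 ≤ s i.succ) ∧ 0 ≤ s 0 ∧ s 0 ≤ ∑ i : Fin n, h i * s i.succ}

/-- power sums of the edge lengths -/
def pS1 (h : Fin n → ℝ) : ℝ := ∑ i, h i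

/-- power sums of the edge lengths -/
def pS2 (h : Fin n → ℝ) : ℝ := ∑ i, h i ^ 2

/-- power sums of the edge lengths -/
def pS3 (h : Fin n → ℝ) : ℝ := ∑ i, h i ^ 3

/-- the moments `∫_Om exp(-∑ u) s_a s_b` in closed form -/
noncomputable def prismQ (h : Fin n → ℝ) : Matrix (Fin (n + 1)) (Fin (n + 1)) ℝ :=
  Matrix.of fun a b =>
    Fin.cases (motive := fun _ => ℝ)
      (Fin.cases (motive := fun _ => ℝ) ((pS1 h ^ 3 + 3 * pS1 h * pS2 h + 2 * pS3 h) / 3)
        (fun j => (pS1 h ^ 2 + pS2 h) / 2 + h j * (pS1 h + h j)) b)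
      (fun i => Fin.cases (motive := fun _ => ℝ) ((pS1 h ^ 2 + pS2 h) / 2 + h i * (pS1 h + h i))
        (fun j => (if i = j then 2 else 1) * (pS1 h + h i + h j)) b) a

@[simp] lemma prismQ_zero_zero (h : Fin n → ℝ) :
    prismQ h 0 0 = (pS1 h ^ 3 + 3 * pS1 h * pS2 h + 2 * pS3 h) / 3 := rfl
@[simp] lemma prismQ_zero_succ (h : Fin n → ℝ) (j : Fin n) :
    prismQ h 0 j.succ = (pS1 h ^ 2 + pS2 h) / 2 + h j * (pS1 h + h j) := rfl
@[simp] lemma prismQ_succ_zero (h : Fin n → ℝ) (i : Fin n) :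
    prismQ h i.succ 0 = (pS1 h ^ 2 + pS2 h) / 2 + h i * (pS1 h + h i) := rfl
@[simp] lemma prismQ_succ_succ (h : Fin n → ℝ) (i j : Fin n) :
    prismQ h i.succ j.succ = (if i = j then 2 else 1) * (pS1 h + h i + h j) := rfl

@[simp] lemma prismW_zero (v : Fin (n + 1) → Fin n → ℝ) (a : Fin (n + 1)) :
    prismW v a 0 = liftMat v a 0 - liftMat v a 1 := rfl
@[simp] lemma prismW_succ (v : Fin (n + 1) → Fin n → ℝ) (a : Fin (n + 1)) (j : Fin n) :
    prismW v a j.succ = liftMat v a j.succ := rfl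

/-- closed form of `det (prismQ h) / (n + 2)` -/
noncomputable def prismFn (h : Fin n → ℝ) : ℝ :=
  (∏ i, (pS1 h + 2 * h i))
    * (∑ i, h i * (pS1 h + h i) / (pS1 h * (pS1 h + 2 * h i)))
    * ((pS1 h ^ 3 + 3 * pS1 h * pS2 h + 2 * pS3 h) / 12)

/-- `f(x) = x (1 + x) (1 + 2 x)` -/
def pf (x : ℝ) : ℝ := x * (1 + x) * (1 + 2 * x)

/-- `g(x) = x (1 + x) / (1 + 2 x)` -/
noncomputable def pg (x : ℝ) : ℝ := x * (1 + x) / (1 + 2 * x)

/-- `P(s) = ∏ (1 + 2 x)` over the atoms `x` of `s` -/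
noncomputable def sP (s : Multiset ℝ) : ℝ := (s.map (fun x => 1 + 2 * x)).prod

/-- `U(s) = ∑ f(x)` over the atoms `x` of `s` -/
noncomputable def sU (s : Multiset ℝ) : ℝ := (s.map pf).sum

/-- `V(s) = ∑ g(x)` over the atoms `x` of `s` -/
noncomputable def sV (s : Multiset ℝ) : ℝ := (s.map pg).sum

/-- `G(s) = P(s) U(s) V(s)`; the isotropic ratio of the prism with normalised edge lengths `s`
(sum one) is `G(s) / 12` -/
noncomputable def sG (s : Multiset ℝ) : ℝ := sP s * sU s * sV s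

end Vale.Agent.H51.Prism
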