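import Mathlib
import Vale.Agent.H68.Orthant

/-! Row PR-1: exponential moments of monomials over the orthant (general exponents).
Model: `H68.Orthant` (`orthant_monomial_eq`, `integrable_orthant_monomial`,
`integral_orthant_monomial`: write the integrand as the product over `m` of
`if 0 ≤ t m then exp (-(t m)) * t m ^ α m else 0`, then `Integrable.fintype_prod`,
`integral_fintype_prod_volume_eq_prod`, `H68.integrable_expMoment`, `H68.integral_expMoment`). -/

namespace Vale.Agent.H51.Prism

open MeasureTheory Set Vale.Agent.H68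

variable {N : ℕ}

/-- The orthant integrand of a monomial as a product of one-dimensional factors. -/
theorem orthmono_eq (α : Fin N → ℕ) (t : Fin N → ℝ) :
    (if ∀ m, 0 ≤ t m then Real.exp (-∑ m, t m) * ∏ m, t m ^ α m else 0)
      = ∏ m, (if 0 ≤ t m then Real.exp (-(t m)) * (t m) ^ (α m) else 0) := by
  by_cases h : ∀ m, 0 ≤ t m
  · rw [if_pos h]
    have h1 : ∀ m ∈ Finset.univ, (if 0 ≤ t m then Real.exp (-(t m)) * (t m) ^ (α m) else 0)
        = Real.exp (-(t m)) * (t m) ^ (α m) := by
      intro m _
      rw [if_pos (h m)]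
    rw [Finset.prod_congr rfl h1, Finset.prod_mul_distrib, ← Real.exp_sum,
      Finset.sum_neg_distrib]
  · rw [if_neg h]
    obtain ⟨m, hm⟩ := not_forall.mp h
    symm
    apply Finset.prod_eq_zero (Finset.mem_univ m)
    rw [if_neg hm]

/-- PR-1 -/
theorem integrable_orth_mono (α : Fin N → ℕ) :
    Integrable (fun t : Fin N → ℝ =>
      if ∀ m, 0 ≤ t m then Real.exp (-∑ m, t m) * ∏ m, t m ^ α m else 0) := by
  have h := Integrable.fintype_prod (μ := fun _ : Fin N => (volume : Measure ℝ))
    (f := fun (m : Fin N) (s : ℝ) => if 0 ≤ s then Real.exp (-s) * s ^ (α m) else 0)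
    (fun m => integrable_expMoment _)
  refine h.congr (Filter.Eventually.of_forall fun t => ?_)
  exact (orthmono_eq α t).symm

/-- PR-1 -/
theorem integral_orth_mono (α : Fin N → ℕ) :
    ∫ t : Fin N → ℝ, (if ∀ m, 0 ≤ t m then Real.exp (-∑ m, t m) * ∏ m, t m ^ α m else 0)
      = ∏ m, ((α m).factorial : ℝ) := by
  simp_rw [orthmono_eq]
  rw [integral_fintype_prod_volume_eq_prod
    (fun (m : Fin N) (s : ℝ) => if 0 ≤ s then Real.exp (-s) * s ^ (α m) else 0)]
  simp_rw [integral_expMoment]

end Vale.Agent.H51.Prism
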