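import Mathlib
import Vale.Agent.H51.Prism.Defs
import Vale.Agent.H51.Prism.OrthMono

/-! Row PR-5: measurability of the cone `Om h` and integrability of the quadratic moments on it.
`measurableSet_Om`: finitely many closed conditions (`measurableSet_le`, `MeasurableSet.iInter`,
or `IsClosed.measurableSet`).
`cone_integrable`: the integrand is measurable (`Measurable.indicator` of a continuous function)
and dominated: on `Om h` all coordinates are `≥ 0` and, with `c = 1 + ∑ i, h i`,
`s 0 ≤ (∑ i, h i) * ∑ i, s i.succ`, hence `∑ m, s m ≤ c * ∑ i, s i.succ` and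
`exp (-∑ i, s i.succ) ≤ exp (-(∑ m, s m) / c)`.  So the norm of the integrand is at most
`if ∀ m, 0 ≤ s m then exp (-∑ m, s m / c) * (s a * s b) else 0`, which is integrable:
it is `c ^ 2` times the function of `integrable_orth_mono` (exponents `[m = a] + [m = b]`)
composed with `s ↦ c⁻¹ • s` (`MeasureTheory.Integrable.comp_smul` or
`integrable_comp_smul_iff`).  Any other route is fine. -/

namespace Vale.Agent.H51.Prism

open MeasureTheory Set Vale.Agent.H68

variable {n : ℕ}

/-- PR-5 -/
theorem measurableSet_Om (h : Fin n → ℝ) : MeasurableSet (Om h) := by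
  have h1 : MeasurableSet {s : Fin (n + 1) → ℝ | ∀ i : Fin n, 0 ≤ s i.succ} := by
    have hEq : {s : Fin (n + 1) → ℝ | ∀ i : Fin n, 0 ≤ s i.succ}
        = ⋂ i : Fin n, {s : Fin (n + 1) → ℝ | 0 ≤ s i.succ} := by
      ext s
      simp
    rw [hEq]
    exact MeasurableSet.iInter
      (fun i => measurableSet_le measurable_const (measurable_pi_apply _))
  have h2 : MeasurableSet {s : Fin (n + 1) → ℝ | 0 ≤ s 0} :=
    measurableSet_le measurable_const (measurable_pi_apply _)
  have h3 : MeasurableSet {s : Fin (n + 1) → ℝ | s 0 ≤ ∑ i : Fin n, h i * s i.succ} :=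
    measurableSet_le (measurable_pi_apply _)
      (Finset.measurable_sum _ (fun i _ => (measurable_pi_apply _).const_mul _))
  exact h1.inter (h2.inter h3)

theorem omint_prod_alpha {N : ℕ} (x : Fin N → ℝ) (a b : Fin N) :
    ∏ m, x m ^ ((if m = a then 1 else 0) + (if m = b then 1 else 0) : ℕ) = x a * x b := by
  have hpt : ∀ m, x m ^ ((if m = a then 1 else 0) + (if m = b then 1 else 0) : ℕ)
      = (if m = a then x m else 1) * (if m = b then x m else 1) := by
    intro m
    rw [pow_add]
    congr 1 <;> split_ifs <;> simp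
  simp only [hpt, Finset.prod_mul_distrib, Finset.prod_ite_eq', Finset.mem_univ, if_true]

/-- PR-5 -/
theorem cone_integrable (h : Fin n → ℝ) (hh : ∀ i, 0 ≤ h i) (a b : Fin (n + 1)) :
    Integrable (fun s : Fin (n + 1) → ℝ =>
      (Om h).indicator (fun s => Real.exp (-∑ i : Fin n, s i.succ) * (s a * s b)) s) := by
  set c : ℝ := 1 + ∑ i, h i with hc
  have hS : 0 ≤ ∑ i, h i := Finset.sum_nonneg (fun i _ => hh i)
  have hcpos : 0 < c := by linarith
  have hF := integrable_orth_mono
    (fun m : Fin (n + 1) => ((if m = a then 1 else 0) + (if m = b then 1 else 0) : ℕ))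
  have hG : Integrable (fun s : Fin (n + 1) → ℝ =>
      c ^ 2 * (if ∀ m, 0 ≤ (c⁻¹ • s) m then Real.exp (-∑ m, (c⁻¹ • s) m)
        * ∏ m, (c⁻¹ • s) m ^ ((if m = a then 1 else 0) + (if m = b then 1 else 0) : ℕ)
        else 0)) :=
    (hF.comp_smul (inv_ne_zero hcpos.ne')).const_mul (c ^ 2)
  refine hG.mono' ?_ (Filter.Eventually.of_forall (fun s => ?_))
  · exact (Continuous.aestronglyMeasurable (by fun_prop)).indicator (measurableSet_Om h)
  · by_cases hs : s ∈ Om h
    · have hs' := hs
      obtain ⟨hs1, hs0, hs2⟩ := hs'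
      have hall : ∀ m, 0 ≤ s m := by
        intro m
        exact Fin.cases hs0 (fun i => hs1 i) m
      have hall' : ∀ m, 0 ≤ (c⁻¹ • s) m := by
        intro m
        simp only [Pi.smul_apply, smul_eq_mul]
        exact mul_nonneg (inv_nonneg.mpr hcpos.le) (hall m)
      rw [Set.indicator_of_mem hs, if_pos hall', omint_prod_alpha]
      simp only [Pi.smul_apply, smul_eq_mul]
      have hab : 0 ≤ s a * s b := mul_nonneg (hall a) (hall b)
      rw [Real.norm_eq_abs, abs_of_nonneg (mul_nonneg (Real.exp_pos _).le hab)]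
      have hsum : ∑ m, s m ≤ c * ∑ i : Fin n, s i.succ := by
        rw [Fin.sum_univ_succ]
        have h3 : ∑ i : Fin n, h i * s i.succ ≤ (∑ j, h j) * ∑ i : Fin n, s i.succ := by
          rw [Finset.mul_sum]
          refine Finset.sum_le_sum (fun i _ => ?_)
          exact mul_le_mul_of_nonneg_right
            (Finset.single_le_sum (fun j _ => hh j) (Finset.mem_univ i)) (hs1 i)
        have hnn : 0 ≤ ∑ i : Fin n, s i.succ := Finset.sum_nonneg (fun i _ => hs1 i)
        rw [hc]
        nlinarith
      have hexp : Real.exp (-∑ i : Fin n, s i.succ) ≤ Real.exp (-∑ m, c⁻¹ * s m) := by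
        apply Real.exp_le_exp.mpr
        rw [← Finset.mul_sum]
        have h4 : c⁻¹ * ∑ m, s m ≤ ∑ i : Fin n, s i.succ := by
          rw [inv_mul_le_iff₀ hcpos]
          exact hsum
        linarith
      calc Real.exp (-∑ i : Fin n, s i.succ) * (s a * s b)
          ≤ Real.exp (-∑ m, c⁻¹ * s m) * (s a * s b) := mul_le_mul_of_nonneg_right hexp hab
        _ = c ^ 2 * (Real.exp (-∑ m, c⁻¹ * s m) * (c⁻¹ * s a * (c⁻¹ * s b))) := by
          field_simp
    · rw [Set.indicator_of_notMem hs, norm_zero]
      apply mul_nonneg (sq_nonneg c)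
      split_ifs with hpos
      · exact mul_nonneg (Real.exp_pos _).le
          (Finset.prod_nonneg (fun m _ => pow_nonneg (hpos m) _))
      · exact le_rfl

end Vale.Agent.H51.Prism
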