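import Mathlib
import Vale.Agent.H51.Prism.OrthMono

/-! Row PR-2: cubic exponential moments over the orthant.
`t i * t j * t k = ∏ m, t m ^ α m` with
`α m = (if m = i then 1 else 0) + (if m = j then 1 else 0) + (if m = k then 1 else 0)`;
then `integrable_orth_mono`, `integral_orth_mono` and a case distinction on the coincidences
among `i, j, k` (all distinct: every factorial is `1`; exactly two equal: one factor `2!`;
all equal: one factor `3! = 6`).  Model for the two-index case: `H68.integral_orthant_monomial`. -/

namespace Vale.Agent.H51.Prism

open MeasureTheory Set Vale.Agent.H68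

variable {N : ℕ}

/-- The cubic monomial as a product of powers. -/
theorem orthcubic_prod (t : Fin N → ℝ) (i j k : Fin N) :
    ∏ m, t m ^ ((if m = i then 1 else 0) + (if m = j then 1 else 0) + (if m = k then 1 else 0))
      = t i * t j * t k := by
  simp only [pow_add, Finset.prod_mul_distrib, pow_ite, pow_one, pow_zero,
    Finset.prod_ite_eq', Finset.mem_univ, if_true]

/-- The product of the factorials of the exponents of a cubic monomial. -/
theorem orthcubic_fact (i j k : Fin N) :
    ∏ m : Fin N, ((((if m = i then 1 else 0) + (if m = j then 1 else 0) +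
        (if m = k then 1 else 0) : ℕ).factorial : ℕ) : ℝ)
      = 1 + (if i = j then 1 else 0) + (if i = k then 1 else 0) + (if j = k then 1 else 0)
          + (if i = j ∧ j = k then 2 else 0) := by
  classical
  have hsub : ∏ m : Fin N, ((((if m = i then 1 else 0) + (if m = j then 1 else 0) +
        (if m = k then 1 else 0) : ℕ).factorial : ℕ) : ℝ) =
      ∏ m ∈ ({i, j, k} : Finset (Fin N)), ((((if m = i then 1 else 0) + (if m = j then 1 else 0) +
        (if m = k then 1 else 0) : ℕ).factorial : ℕ) : ℝ) := by
    symm
    apply Finset.prod_subset (Finset.subset_univ _)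
    intro m _ hm
    simp only [Finset.mem_insert, Finset.mem_singleton, not_or] at hm
    simp [hm.1, hm.2.1, hm.2.2]
  rw [hsub]
  by_cases hij : i = j
  · subst hij
    by_cases hik : i = k
    · subst hik
      simp
      norm_num [Nat.factorial]
    · have hki : k ≠ i := fun h => hik h.symm
      simp [hik, hki, Finset.prod_insert]
      norm_num [Nat.factorial]
  · have hji : j ≠ i := fun h => hij h.symm
    by_cases hik : i = k
    · subst hik
      simp [hij, hji, Finset.prod_insert]
      norm_num [Nat.factorial]
    · have hki : k ≠ i := fun h => hik h.symm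
      by_cases hjk : j = k
      · subst hjk
        simp [hij, hji, Finset.prod_insert]
        norm_num [Nat.factorial]
      · have hkj : k ≠ j := fun h => hjk h.symm
        simp [hij, hji, hik, hki, hjk, hkj, Finset.prod_insert]

/-- PR-2 -/
theorem integrable_orth_cubic (i j k : Fin N) :
    Integrable (fun t : Fin N → ℝ =>
      if ∀ m, 0 ≤ t m then Real.exp (-∑ m, t m) * (t i * t j * t k) else 0) := by
  have h := integrable_orth_mono (N := N)
    (fun m => (if m = i then 1 else 0) + (if m = j then 1 else 0) + (if m = k then 1 else 0))
  simp only [orthcubic_prod] at h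
  exact h

/-- PR-2 -/
theorem integral_orth_cubic (i j k : Fin N) :
    ∫ t : Fin N → ℝ, (if ∀ m, 0 ≤ t m then Real.exp (-∑ m, t m) * (t i * t j * t k) else 0)
      = 1 + (if i = j then 1 else 0) + (if i = k then 1 else 0) + (if j = k then 1 else 0)
          + (if i = j ∧ j = k then 2 else 0) := by
  have h := integral_orth_mono (N := N)
    (fun m => (if m = i then 1 else 0) + (if m = j then 1 else 0) + (if m = k then 1 else 0))
  simp only [orthcubic_prod] at h
  rw [h]
  exact orthcubic_fact i j k

end Vale.Agent.H51.Prism
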