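import Mathlib
import Vale.Agent.H51.Prism.Defs
import Vale.Agent.H51.Prism.OrthCubic

/-! Row PR-3: the three exponential moments with powers of the linear form `∑ h m * t m`.
Expand the linear form (`Finset.mul_sum`, `Finset.sum_mul_sum`, `pow_succ`), pull the finite
sums out of the integral (`integral_finsetSum` with `integrable_orth_cubic ... .const_mul`),
use `integral_orth_cubic`, and evaluate the sums of Kronecker deltas (`Finset.sum_ite_eq`):
`∑_m h m (1 + [i=j] + [i=m] + [j=m] + 2 [i=j=m]) = (1 + [i=j]) (H + h i + h j)`,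
`∑_{m,m'} h m h m' (1 + [i=m] + [i=m'] + [m=m'] + 2 [i=m=m']) = H^2 + p2 + 2 h i (H + h i)`,
`∑_{m,m',m''} h m h m' h m'' (1 + [m=m'] + [m=m''] + [m'=m''] + 2 [m=m'=m'']) = H^3 + 3 H p2 + 2 p3`,
where `H = pS1 h`, `p2 = pS2 h`, `p3 = pS3 h`. -/

namespace Vale.Agent.H51.Prism

open MeasureTheory Set Vale.Agent.H68

variable {N : ℕ}

/-- the closed form of the cubic orthant moment -/
noncomputable def orthpoly_val (i j k : Fin N) : ℝ :=
  1 + (if i = j then 1 else 0) + (if i = k then 1 else 0) + (if j = k then 1 else 0)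
    + (if i = j ∧ j = k then 2 else 0)

/-- a finite linear combination of cubic monomials integrates termwise -/
theorem orthpoly_sum {ι : Type*} (s : Finset ι) (c : ι → ℝ) (a b d : ι → Fin N) :
    ∫ t : Fin N → ℝ,
      (if ∀ m, 0 ≤ t m then
        Real.exp (-∑ m, t m) * ∑ x ∈ s, c x * (t (a x) * t (b x) * t (d x)) else 0)
      = ∑ x ∈ s, c x * orthpoly_val (a x) (b x) (d x) := by
  have h1 : ∀ t : Fin N → ℝ,
      (if ∀ m, 0 ≤ t m then
        Real.exp (-∑ m, t m) * ∑ x ∈ s, c x * (t (a x) * t (b x) * t (d x)) else 0)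
      = ∑ x ∈ s, c x * (if ∀ m, 0 ≤ t m then
          Real.exp (-∑ m, t m) * (t (a x) * t (b x) * t (d x)) else 0) := by
    intro t
    by_cases hP : ∀ m, 0 ≤ t m
    · simp only [if_pos hP]
      rw [Finset.mul_sum]
      refine Finset.sum_congr rfl fun x _ => ?_
      ring
    · simp only [if_neg hP, mul_zero, Finset.sum_const_zero]
  simp_rw [h1]
  rw [integral_finsetSum]
  · refine Finset.sum_congr rfl fun x _ => ?_
    rw [integral_const_mul, integral_orth_cubic]
    rfl
  · intro x _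
    exact (integrable_orth_cubic (a x) (b x) (d x)).const_mul (c x)

/-- the delta sum of the first moment -/
theorem orthpoly_ll_sum (h : Fin N → ℝ) (i j : Fin N) :
    ∑ m, h m * orthpoly_val i j m
      = (if i = j then 2 else 1) * (pS1 h + h i + h j) := by
  unfold orthpoly_val pS1
  by_cases hij : i = j
  · subst hij
    simp only [if_true, true_and, mul_add, mul_one, Finset.sum_add_distrib, mul_ite, mul_zero,
      Finset.sum_ite_eq, Finset.mem_univ]
    ring
  · simp only [hij, false_and, if_false, mul_add, mul_one, Finset.sum_add_distrib,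
      mul_ite, mul_zero, Finset.sum_ite_eq, Finset.mem_univ, if_true, add_zero, one_mul]

/-- the delta sum of the second moment -/
theorem orthpoly_l_sum (h : Fin N → ℝ) (i : Fin N) :
    ∑ m, ∑ m', h m * h m' * orthpoly_val i m m'
      = pS1 h ^ 2 + pS2 h + 2 * h i * (pS1 h + h i) := by
  unfold orthpoly_val pS1 pS2
  simp only [mul_add, mul_one, Finset.sum_add_distrib, mul_ite, mul_zero,
    Finset.sum_ite_eq, Finset.mem_univ, if_true, ite_and, Finset.sum_ite_irrel,
    Finset.sum_const_zero, ← Finset.mul_sum, ← Finset.sum_mul]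
  have e1 : ∑ x, h x * h x = ∑ x, h x ^ 2 :=
    Finset.sum_congr rfl fun x _ => (sq (h x)).symm
  rw [e1]
  ring

/-- the delta sum of the third moment -/
theorem orthpoly_z_sum (h : Fin N → ℝ) :
    ∑ m, ∑ m', ∑ m'', h m * h m' * h m'' * orthpoly_val m m' m''
      = pS1 h ^ 3 + 3 * pS1 h * pS2 h + 2 * pS3 h := by
  unfold orthpoly_val pS1 pS2 pS3
  simp only [mul_add, mul_one, Finset.sum_add_distrib, mul_ite, mul_zero,
    Finset.sum_ite_eq, Finset.mem_univ, if_true, ite_and, Finset.sum_ite_irrel,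
    Finset.sum_const_zero, ← Finset.mul_sum, ← Finset.sum_mul]
  have e1 : ∑ x, h x * h x = ∑ x, h x ^ 2 :=
    Finset.sum_congr rfl fun x _ => (sq (h x)).symm
  have e2 : ∑ x, (h x * ∑ i, h i) * h x = (∑ i, h i) * ∑ x, h x ^ 2 := by
    rw [Finset.mul_sum]
    refine Finset.sum_congr rfl fun x _ => ?_
    ring
  have e3 : ∑ x, ∑ x_1, h x * h x_1 * h x_1 = (∑ i, h i) * ∑ x, h x ^ 2 := by
    rw [Finset.sum_mul_sum]
    refine Finset.sum_congr rfl fun x _ => ?_
    refine Finset.sum_congr rfl fun y _ => ?_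
    ring
  have e4 : ∑ x, h x * h x * h x = ∑ x, h x ^ 3 :=
    Finset.sum_congr rfl fun x _ => by ring
  rw [e1, e2, e3, e4]
  ring

/-- PR-3 -/
theorem integral_orth_ll (h : Fin N → ℝ) (i j : Fin N) :
    ∫ t : Fin N → ℝ,
      (if ∀ m, 0 ≤ t m then Real.exp (-∑ m, t m) * (t i * t j * ∑ m, h m * t m) else 0)
      = (if i = j then 2 else 1) * (pS1 h + h i + h j) := by
  have h1 : ∀ t : Fin N → ℝ, t i * t j * ∑ m, h m * t m
      = ∑ m ∈ Finset.univ, h m * (t i * t j * t m) := by
    intro t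
    rw [Finset.mul_sum]
    refine Finset.sum_congr rfl fun m _ => ?_
    ring
  simp_rw [h1]
  rw [orthpoly_sum Finset.univ h (fun _ => i) (fun _ => j) (fun m => m)]
  exact orthpoly_ll_sum h i j

/-- PR-3 -/
theorem integral_orth_l (h : Fin N → ℝ) (i : Fin N) :
    ∫ t : Fin N → ℝ,
      (if ∀ m, 0 ≤ t m then Real.exp (-∑ m, t m) * (t i * (∑ m, h m * t m) ^ 2) else 0)
      = pS1 h ^ 2 + pS2 h + 2 * h i * (pS1 h + h i) := by
  have h1 : ∀ t : Fin N → ℝ, t i * (∑ m, h m * t m) ^ 2
      = ∑ p ∈ (Finset.univ : Finset (Fin N × Fin N)),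
          h p.1 * h p.2 * (t i * t p.1 * t p.2) := by
    intro t
    rw [sq, Finset.sum_mul_sum, Finset.mul_sum, Fintype.sum_prod_type]
    refine Finset.sum_congr rfl fun m _ => ?_
    rw [Finset.mul_sum]
    refine Finset.sum_congr rfl fun m' _ => ?_
    ring
  simp_rw [h1]
  rw [orthpoly_sum Finset.univ (fun p : Fin N × Fin N => h p.1 * h p.2) (fun _ => i)
    (fun p => p.1) (fun p => p.2)]
  rw [Fintype.sum_prod_type]
  exact orthpoly_l_sum h i

/-- PR-3 -/
theorem integral_orth_z (h : Fin N → ℝ) :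
    ∫ t : Fin N → ℝ,
      (if ∀ m, 0 ≤ t m then Real.exp (-∑ m, t m) * (∑ m, h m * t m) ^ 3 else 0)
      = pS1 h ^ 3 + 3 * pS1 h * pS2 h + 2 * pS3 h := by
  have h1 : ∀ t : Fin N → ℝ, (∑ m, h m * t m) ^ 3
      = ∑ p ∈ (Finset.univ : Finset (Fin N × Fin N × Fin N)),
          h p.1 * h p.2.1 * h p.2.2 * (t p.1 * t p.2.1 * t p.2.2) := by
    intro t
    rw [pow_succ, sq, Finset.sum_mul_sum, Fintype.sum_prod_type]
    rw [Finset.sum_mul]
    refine Finset.sum_congr rfl fun m _ => ?_
    rw [Fintype.sum_prod_type, Finset.sum_mul]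
    refine Finset.sum_congr rfl fun m' _ => ?_
    rw [Finset.mul_sum]
    refine Finset.sum_congr rfl fun m'' _ => ?_
    ring
  simp_rw [h1]
  rw [orthpoly_sum Finset.univ (fun p : Fin N × Fin N × Fin N => h p.1 * h p.2.1 * h p.2.2)
    (fun p => p.1) (fun p => p.2.1) (fun p => p.2.2)]
  rw [Fintype.sum_prod_type]
  simp_rw [Fintype.sum_prod_type]
  exact orthpoly_z_sum h

end Vale.Agent.H51.Prism
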