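import Mathlib
import Vale.Agent.H68.Simplex

/-! Row PR-4: Fubini with the first coordinate innermost, and the one-dimensional integral.
`integral_slice_swap`: as `H68.integral_slice` (same measure-preserving equivalence
`MeasurableEquiv.piFinSuccAbove (fun _ => ℝ) 0`, `Measure.volume_eq_prod`), but with
`integral_prod_symm` instead of `integral_prod`.
`integral_z_pow`: the integrand is `(Set.Icc 0 g).indicator (fun z => c * z ^ k)`;
`integral_indicator`, `integral_Icc_eq_integral_Ioc`, `intervalIntegral.integral_of_le`,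
`integral_pow` (or `integral_const_mul` + `integral_pow`). -/

namespace Vale.Agent.H51.Prism

open MeasureTheory Set Vale.Agent.H68

variable {n : ℕ}

/-- PR-4 -/
theorem integral_slice_swap (F : (Fin (n + 1) → ℝ) → ℝ) (hF : Integrable F) :
    ∫ y, F y = ∫ u : Fin n → ℝ, ∫ z : ℝ, F (Fin.cons z u) := by
  have hem : MeasurePreserving (MeasurableEquiv.piFinSuccAbove (fun _ : Fin (n + 1) => ℝ) 0).symm :=
    (volume_preserving_piFinSuccAbove (fun _ : Fin (n + 1) => ℝ) 0).symm _
  rw [← hem.integral_comp', Measure.volume_eq_prod, integral_prod_symm]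
  · congr 1
    funext u
    congr 1
    funext z
    congr 1
    simp [MeasurableEquiv.piFinSuccAbove_symm_apply, Fin.insertNthEquiv]
  · exact (hem.integrable_comp_emb (MeasurableEquiv.measurableEmbedding _)).mpr hF

/-- PR-4 -/
theorem integral_z_pow (g c : ℝ) (hg : 0 ≤ g) (k : ℕ) :
    ∫ z : ℝ, (if 0 ≤ z ∧ z ≤ g then c * z ^ k else 0) = c * g ^ (k + 1) / ((k : ℝ) + 1) := by
  have h1 : (fun z : ℝ => if 0 ≤ z ∧ z ≤ g then c * z ^ k else 0)
      = (Set.Icc 0 g).indicator (fun z => c * z ^ k) := by
    funext z
    simp [Set.indicator, Set.mem_Icc]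
  rw [h1, integral_indicator measurableSet_Icc, integral_Icc_eq_integral_Ioc,
    ← intervalIntegral.integral_of_le hg, intervalIntegral.integral_const_mul, integral_pow]
  simp
  ring

end Vale.Agent.H51.Prism
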