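import Mathlib
import Vale.Agent.H51.Prism.Defs
import Vale.Agent.H51.Prism.OrthPoly
import Vale.Agent.H51.Prism.SliceZ
import Vale.Agent.H51.Prism.OmInt

/-! Row PR-6: the quadratic moments of the cone `Om h` are the entries of `prismQ h`.
`integral_slice_swap` (with `cone_integrable`) gives `∫ u, ∫ z, F (Fin.cons z u)`.  For fixed `u`:
`Fin.cons z u ∈ Om h ↔ (∀ i, 0 ≤ u i) ∧ 0 ≤ z ∧ z ≤ ∑ i, h i * u i` (`Fin.cons_succ`, `Fin.cons_zero`),
so if some `u i < 0` the inner integral is `0`, and otherwise `g = ∑ i, h i * u i ≥ 0` and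
`integral_z_pow` gives, for `(a, b) = (0, 0)`: `exp (-∑ u) * g ^ 3 / 3`; for `(0, j.succ)` and
`(j.succ, 0)`: `exp (-∑ u) * u j * g ^ 2 / 2`; for `(i.succ, j.succ)`: `exp (-∑ u) * u i * u j * g`.
Then `integral_orth_z`, `integral_orth_l`, `integral_orth_ll` (pull the constants `1/3`, `1/2` out). -/

namespace Vale.Agent.H51.Prism

open MeasureTheory Set Vale.Agent.H68

variable {n : ℕ}

/-- the inner integral over the height coordinate -/
lemma coneQ_inner (h : Fin n → ℝ) (hh : ∀ i, 0 ≤ h i) (u : Fin n → ℝ) (c : ℝ) (k : ℕ)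
    (G : ℝ → ℝ) (hG : ∀ z, G z = c * z ^ k) :
    ∫ z : ℝ, (if (∀ i, 0 ≤ u i) ∧ 0 ≤ z ∧ z ≤ ∑ i, h i * u i then G z else 0)
      = if ∀ i, 0 ≤ u i then c * (∑ i, h i * u i) ^ (k + 1) / ((k : ℝ) + 1) else 0 := by
  by_cases hu : ∀ i, 0 ≤ u i
  · have hg : 0 ≤ ∑ i, h i * u i := Finset.sum_nonneg (fun i _ => mul_nonneg (hh i) (hu i))
    rw [if_pos hu, ← integral_z_pow _ c hg k]
    congr 1
    funext z
    simp [hu, hG]
  · simp [hu]

/-- membership of `Fin.cons z u` in the cone -/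
lemma coneQ_indicator (h : Fin n → ℝ) (a b : Fin (n + 1)) (u : Fin n → ℝ) (z : ℝ) :
    (Om h).indicator (fun s => Real.exp (-∑ i : Fin n, s i.succ) * (s a * s b))
        (Fin.cons z u : Fin (n + 1) → ℝ)
      = if (∀ i, 0 ≤ u i) ∧ 0 ≤ z ∧ z ≤ ∑ i, h i * u i then
          Real.exp (-∑ i, u i) * ((Fin.cons z u : Fin (n + 1) → ℝ) a
            * (Fin.cons z u : Fin (n + 1) → ℝ) b) else 0 := by
  simp only [Set.indicator, Om, Set.mem_ofPred_eq, Fin.cons_succ, Fin.cons_zero]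

/-- PR-6 -/
theorem cone_integral (h : Fin n → ℝ) (hh : ∀ i, 0 ≤ h i) (a b : Fin (n + 1)) :
    ∫ s : Fin (n + 1) → ℝ,
      (Om h).indicator (fun s => Real.exp (-∑ i : Fin n, s i.succ) * (s a * s b)) s
      = prismQ h a b := by
  rw [integral_slice_swap _ (cone_integrable h hh a b)]
  simp_rw [coneQ_indicator]
  rcases Fin.eq_zero_or_eq_succ a with rfl | ⟨i, rfl⟩ <;>
    rcases Fin.eq_zero_or_eq_succ b with rfl | ⟨j, rfl⟩
  · simp only [Fin.cons_zero]
    have h1 : ∀ u : Fin n → ℝ,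
        ∫ z : ℝ, (if (∀ i, 0 ≤ u i) ∧ 0 ≤ z ∧ z ≤ ∑ i, h i * u i then
          Real.exp (-∑ i, u i) * (z * z) else 0)
        = (1 / 3 : ℝ) * (if ∀ m, 0 ≤ u m then
            Real.exp (-∑ m, u m) * (∑ m, h m * u m) ^ 3 else 0) := by
      intro u
      rw [coneQ_inner h hh u (Real.exp (-∑ i, u i)) 2 _ (fun z => by ring)]
      split_ifs
      · push_cast; ring
      · simp
    simp_rw [h1]
    rw [integral_const_mul, integral_orth_z, prismQ_zero_zero]
    ring
  · simp only [Fin.cons_zero, Fin.cons_succ]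
    have h1 : ∀ u : Fin n → ℝ,
        ∫ z : ℝ, (if (∀ i, 0 ≤ u i) ∧ 0 ≤ z ∧ z ≤ ∑ i, h i * u i then
          Real.exp (-∑ i, u i) * (z * u j) else 0)
        = (1 / 2 : ℝ) * (if ∀ m, 0 ≤ u m then
            Real.exp (-∑ m, u m) * (u j * (∑ m, h m * u m) ^ 2) else 0) := by
      intro u
      rw [coneQ_inner h hh u (Real.exp (-∑ i, u i) * u j) 1 _ (fun z => by ring)]
      split_ifs
      · push_cast; ring
      · simp
    simp_rw [h1]
    rw [integral_const_mul, integral_orth_l, prismQ_zero_succ]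
    ring
  · simp only [Fin.cons_zero, Fin.cons_succ]
    have h1 : ∀ u : Fin n → ℝ,
        ∫ z : ℝ, (if (∀ i, 0 ≤ u i) ∧ 0 ≤ z ∧ z ≤ ∑ i, h i * u i then
          Real.exp (-∑ i, u i) * (u i * z) else 0)
        = (1 / 2 : ℝ) * (if ∀ m, 0 ≤ u m then
            Real.exp (-∑ m, u m) * (u i * (∑ m, h m * u m) ^ 2) else 0) := by
      intro u
      rw [coneQ_inner h hh u (Real.exp (-∑ i, u i) * u i) 1 _ (fun z => by ring)]
      split_ifs
      · push_cast; ring
      · simp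
    simp_rw [h1]
    rw [integral_const_mul, integral_orth_l, prismQ_succ_zero]
    ring
  · simp only [Fin.cons_succ]
    have h1 : ∀ u : Fin n → ℝ,
        ∫ z : ℝ, (if (∀ i, 0 ≤ u i) ∧ 0 ≤ z ∧ z ≤ ∑ i, h i * u i then
          Real.exp (-∑ i, u i) * (u i * u j) else 0)
        = (if ∀ m, 0 ≤ u m then
            Real.exp (-∑ m, u m) * (u i * u j * ∑ m, h m * u m) else 0) := by
      intro u
      rw [coneQ_inner h hh u (Real.exp (-∑ i, u i) * (u i * u j)) 0 _ (fun z => by ring)]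
      split_ifs
      · push_cast; ring
      · rfl
    simp_rw [h1]
    rw [integral_orth_ll, prismQ_succ_succ]

end Vale.Agent.H51.Prism
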