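import Mathlib
import Vale.Agent.H51.Prism.Defs

/-! Row PR-12: the polynomial core of the merging step (atoms `a = b + c ≥ b ≥ 0`, rest mass `r`,
total mass `2 b + c + r = 1`).
`merge_base`: unfold `pf`; substituting `r = 1 - 2 * b - c` is NOT the way: instead multiply the first
product by `1 = 2 * b + c + r` and replace every constant `1` by `2 * b + c + r`
(homogenisation); the difference then is the following polynomial, homogeneous of degree 7, ALL of
whose coefficients are positive (exponents of `b, c, r` : coefficient):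
 (1,2,4):20 (1,3,3):68 (1,4,2):72 (1,5,1):24 (2,1,4):40 (2,2,3):344 (2,3,2):648 (2,4,1):384 (2,5,0):48
 (3,0,4):20 (3,1,3):484 (3,2,2):1864 (3,3,1):1912 (3,4,0):480 (4,0,3):208 (4,1,2):2072 (4,2,1):4048
 (4,3,0):1776 (5,0,2):784 (5,1,1):3776 (5,2,0):3072 (6,0,1):1280 (6,1,0):2496 (7,0,0):768.
So: `have key : (the expression) = (this polynomial in b c r)` by
`have h1' : (1 : ℝ) = 2 * b + c + r := h1.symm` and `linear_combination (e := ...) ... * h1` or, simpler,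
write `T = 2 * b + c + r`, prove the identity with `T` in place of every `1` by `ring`, then `rw`/`subst`
with `T = 1`; then `positivity`.  Every monomial contains `b`, and `768 * b ^ 7 > 0` if `b > 0`.
`merge_real`: with `s = a + b`, `Ub = r (1 + b) (1 + 2 b)`, `Vb = r (1 + b) / (1 + 2 b)` and
`Φ(U, V) = (1 + 2 s) (U + pf s) (V + pg s) - (1 + 2 a) (1 + 2 b) (U + pf a + pf b) (V + pg a + pg b)`:
`Φ(U, V) = Φ(Ub, Vb) + (Ub - U) (4 a b V + 2 a b (1 + s)) + (V - Vb) (cV - 4 a b Ub)`,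
`cV = 2 a b (3 (1 + s) (1 + 2 s) - 2 (pf a + pf b))` (identity: `unfold pf pg; field_simp; ring`).
`Vb ≥ 0`, so `V ≥ 0`; `cV - 4 a b Ub ≥ 0` because `pf a + pf b + Ub ≤ (a + b + r) (1 + s) (1 + 2 s)`;
`(1 + 2 b) * Φ(Ub, Vb)` is the expression of `merge_base` with `c = a - b`. -/

namespace Vale.Agent.H51.Prism

/-- the homogenised difference, a polynomial with positive coefficients -/
lemma mergePoly_key (b c r : ℝ) (h1 : 2 * b + c + r = 1) :
    (r * (1 + b) * (1 + 2 * b) + pf (2 * b + c))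
          * (r * (1 + b) * (1 + 2 * (2 * b + c)) + (2 * b + c) * (1 + (2 * b + c)) * (1 + 2 * b))
        - (1 + 2 * b) * (r * (1 + b) * (1 + 2 * b) + pf (b + c) + pf b)
          * (r * (1 + b) * (1 + 2 * (b + c)) + (b + c) * (1 + (b + c)) * (1 + 2 * b)
              + b * (1 + b) * (1 + 2 * (b + c)))
      = 20 * b * c ^ 2 * r ^ 4 + 68 * b * c ^ 3 * r ^ 3 + 72 * b * c ^ 4 * r ^ 2 + 24 * b * c ^ 5 * r + 40 * b ^ 2 * c * r ^ 4 + 344 * b ^ 2 * c ^ 2 * r ^ 3 + 648 * b ^ 2 * c ^ 3 * r ^ 2 + 384 * b ^ 2 * c ^ 4 * r + 48 * b ^ 2 * c ^ 5 + 20 * b ^ 3 * r ^ 4 + 484 * b ^ 3 * c * r ^ 3 + 1864 * b ^ 3 * c ^ 2 * r ^ 2 + 1912 * b ^ 3 * c ^ 3 * r + 480 * b ^ 3 * c ^ 4 + 208 * b ^ 4 * r ^ 3 + 2072 * b ^ 4 * c * r ^ 2 + 4048 * b ^ 4 * c ^ 2 * r + 1776 * b ^ 4 * c ^ 3 + 784 * b ^ 5 * r ^ 2 + 3776 * b ^ 5 * c * r + 3072 * b ^ 5 * c ^ 2 + 1280 * b ^ 6 * r + 2496 * b ^ 6 * c + 768 * b ^ 7 := by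
  have hr : r = 1 - 2 * b - c := by linarith
  subst hr
  unfold pf
  ring

/-- PR-12 -/
theorem merge_base (b c r : ℝ) (hb : 0 ≤ b) (hc : 0 ≤ c) (hr : 0 ≤ r) (h1 : 2 * b + c + r = 1) :
    0 ≤ (r * (1 + b) * (1 + 2 * b) + pf (2 * b + c))
          * (r * (1 + b) * (1 + 2 * (2 * b + c)) + (2 * b + c) * (1 + (2 * b + c)) * (1 + 2 * b))
        - (1 + 2 * b) * (r * (1 + b) * (1 + 2 * b) + pf (b + c) + pf b)
          * (r * (1 + b) * (1 + 2 * (b + c)) + (b + c) * (1 + (b + c)) * (1 + 2 * b)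
              + b * (1 + b) * (1 + 2 * (b + c))) := by
  rw [mergePoly_key b c r h1]
  positivity

/-- PR-12 -/
theorem merge_base_pos (b c r : ℝ) (hb : 0 < b) (hc : 0 ≤ c) (hr : 0 ≤ r)
    (h1 : 2 * b + c + r = 1) :
    0 < (r * (1 + b) * (1 + 2 * b) + pf (2 * b + c))
          * (r * (1 + b) * (1 + 2 * (2 * b + c)) + (2 * b + c) * (1 + (2 * b + c)) * (1 + 2 * b))
        - (1 + 2 * b) * (r * (1 + b) * (1 + 2 * b) + pf (b + c) + pf b)
          * (r * (1 + b) * (1 + 2 * (b + c)) + (b + c) * (1 + (b + c)) * (1 + 2 * b)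
              + b * (1 + b) * (1 + 2 * (b + c))) := by
  rw [mergePoly_key b c r h1]
  positivity

/-- the three-term decomposition of the difference of the two sides -/
lemma mergePoly_decomp (a b r Ur Vr : ℝ) (ha : 0 ≤ a) (hb : 0 ≤ b) :
    (1 + 2 * (a + b)) * (Ur + pf (a + b)) * (Vr + pg (a + b))
      - (1 + 2 * a) * (1 + 2 * b) * (Ur + pf a + pf b) * (Vr + pg a + pg b)
    = ((r * (1 + b) * (1 + 2 * b) + pf (a + b))
          * (r * (1 + b) * (1 + 2 * (a + b)) + (a + b) * (1 + (a + b)) * (1 + 2 * b))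
        - (1 + 2 * b) * (r * (1 + b) * (1 + 2 * b) + pf a + pf b)
          * (r * (1 + b) * (1 + 2 * a) + a * (1 + a) * (1 + 2 * b)
              + b * (1 + b) * (1 + 2 * a))) / (1 + 2 * b)
      + ((r * (1 + b) * (1 + 2 * b) - Ur) * (4 * a * b * Vr + 2 * a * b * (1 + (a + b)))
      + (Vr - r * (1 + b) / (1 + 2 * b))
          * (2 * a * b * (3 * (1 + (a + b)) * (1 + 2 * (a + b)) - 2 * (pf a + pf b))
              - 4 * a * b * (r * (1 + b) * (1 + 2 * b)))) := by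
  have ha2 : (1 + 2 * a) ≠ 0 := by positivity
  have hb2 : (1 + 2 * b) ≠ 0 := by positivity
  have hs2 : (1 + 2 * (a + b)) ≠ 0 := by positivity
  unfold pf pg
  field_simp
  ring

/-- the two correction terms are nonnegative -/
lemma mergePoly_rest (a b r Ur Vr : ℝ) (hb : 0 ≤ b) (hab : b ≤ a) (hr : 0 ≤ r)
    (h1 : a + b + r = 1) (hU : Ur ≤ r * (1 + b) * (1 + 2 * b))
    (hV : r * (1 + b) / (1 + 2 * b) ≤ Vr) :
    0 ≤ (r * (1 + b) * (1 + 2 * b) - Ur) * (4 * a * b * Vr + 2 * a * b * (1 + (a + b)))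
      + (Vr - r * (1 + b) / (1 + 2 * b))
          * (2 * a * b * (3 * (1 + (a + b)) * (1 + 2 * (a + b)) - 2 * (pf a + pf b))
              - 4 * a * b * (r * (1 + b) * (1 + 2 * b))) := by
  have ha : 0 ≤ a := le_trans hb hab
  have hVb : 0 ≤ r * (1 + b) / (1 + 2 * b) := by positivity
  have hVr : 0 ≤ Vr := le_trans hVb hV
  have hfa : pf a ≤ a * ((1 + (a + b)) * (1 + 2 * (a + b))) := by
    unfold pf
    rw [mul_assoc]
    apply mul_le_mul_of_nonneg_left _ ha
    apply mul_le_mul <;> linarith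
  have hfb : pf b ≤ b * ((1 + (a + b)) * (1 + 2 * (a + b))) := by
    unfold pf
    rw [mul_assoc]
    apply mul_le_mul_of_nonneg_left _ hb
    apply mul_le_mul <;> linarith
  have hUb : r * (1 + b) * (1 + 2 * b) ≤ r * ((1 + (a + b)) * (1 + 2 * (a + b))) := by
    rw [mul_assoc]
    apply mul_le_mul_of_nonneg_left _ hr
    apply mul_le_mul <;> linarith
  have hsum : pf a + pf b + r * (1 + b) * (1 + 2 * b)
      ≤ (1 + (a + b)) * (1 + 2 * (a + b)) := by
    calc pf a + pf b + r * (1 + b) * (1 + 2 * b)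
        ≤ a * ((1 + (a + b)) * (1 + 2 * (a + b))) + b * ((1 + (a + b)) * (1 + 2 * (a + b)))
            + r * ((1 + (a + b)) * (1 + 2 * (a + b))) := by linarith
      _ = (a + b + r) * ((1 + (a + b)) * (1 + 2 * (a + b))) := by ring
      _ = (1 + (a + b)) * (1 + 2 * (a + b)) := by rw [h1, one_mul]
  have hS : 0 ≤ (1 + (a + b)) * (1 + 2 * (a + b)) := by positivity
  have hc : 0 ≤ 2 * a * b * (3 * (1 + (a + b)) * (1 + 2 * (a + b)) - 2 * (pf a + pf b))
              - 4 * a * b * (r * (1 + b) * (1 + 2 * b)) := by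
    have e : 2 * a * b * (3 * (1 + (a + b)) * (1 + 2 * (a + b)) - 2 * (pf a + pf b))
              - 4 * a * b * (r * (1 + b) * (1 + 2 * b))
        = 2 * (a * b) * (3 * ((1 + (a + b)) * (1 + 2 * (a + b)))
            - 2 * (pf a + pf b + r * (1 + b) * (1 + 2 * b))) := by ring
    rw [e]
    apply mul_nonneg (by positivity)
    linarith
  have ht2 : 0 ≤ 4 * a * b * Vr + 2 * a * b * (1 + (a + b)) := by positivity
  exact add_nonneg (mul_nonneg (sub_nonneg.2 hU) ht2) (mul_nonneg (sub_nonneg.2 hV) hc)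

/-- PR-12 -/
theorem merge_real (a b r Ur Vr : ℝ) (hb : 0 ≤ b) (hab : b ≤ a) (hr : 0 ≤ r)
    (h1 : a + b + r = 1) (hU : Ur ≤ r * (1 + b) * (1 + 2 * b))
    (hV : r * (1 + b) / (1 + 2 * b) ≤ Vr) :
    (1 + 2 * a) * (1 + 2 * b) * (Ur + pf a + pf b) * (Vr + pg a + pg b)
      ≤ (1 + 2 * (a + b)) * (Ur + pf (a + b)) * (Vr + pg (a + b)) := by
  have ha : 0 ≤ a := le_trans hb hab
  have hE := merge_base b (a - b) r hb (by linarith) hr (by linarith)
  have e1 : 2 * b + (a - b) = a + b := by ring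
  have e2 : b + (a - b) = a := by ring
  rw [e1, e2] at hE
  have hdec := mergePoly_decomp a b r Ur Vr ha hb
  have hrest := mergePoly_rest a b r Ur Vr hb hab hr h1 hU hV
  have hdiv := div_nonneg hE (show (0 : ℝ) ≤ 1 + 2 * b by positivity)
  linarith

/-- PR-12 -/
theorem merge_real_lt (a b r Ur Vr : ℝ) (hb : 0 < b) (hab : b ≤ a) (hr : 0 ≤ r)
    (h1 : a + b + r = 1) (hU : Ur ≤ r * (1 + b) * (1 + 2 * b))
    (hV : r * (1 + b) / (1 + 2 * b) ≤ Vr) :
    (1 + 2 * a) * (1 + 2 * b) * (Ur + pf a + pf b) * (Vr + pg a + pg b)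
      < (1 + 2 * (a + b)) * (Ur + pf (a + b)) * (Vr + pg (a + b)) := by
  have ha : 0 ≤ a := le_trans hb.le hab
  have hE := merge_base_pos b (a - b) r hb (by linarith) hr (by linarith)
  have e1 : 2 * b + (a - b) = a + b := by ring
  have e2 : b + (a - b) = a := by ring
  rw [e1, e2] at hE
  have hdec := mergePoly_decomp a b r Ur Vr ha hb.le
  have hrest := mergePoly_rest a b r Ur Vr hb.le hab hr h1 hU hV
  have hdiv := div_pos hE (show (0 : ℝ) < 1 + 2 * b by positivity)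
  linarith

end Vale.Agent.H51.Prism
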