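import Mathlib
import Vale.Agent.H51.Prism.Defs
import Vale.Agent.H51.Prism.MergePoly

/-! Row PR-13: merging the two largest atoms increases `sG`.
`sP (a ::ₘ b ::ₘ r) = (1 + 2 a) (1 + 2 b) sP r`, `sU = pf a + pf b + sU r`, `sV = pg a + pg b + sV r`
(`Multiset.map_cons`, `Multiset.prod_cons`, `Multiset.sum_cons`), and the same for `(a + b) ::ₘ r`.
For the rest `r` (atoms `0 ≤ x ≤ b`), by induction on the multiset (`Multiset.induction_on`):
`1 ≤ sP r`;  `sU r ≤ r.sum * ((1 + b) * (1 + 2 * b))` since `pf x ≤ x * ((1 + b) * (1 + 2 * b))`;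
`r.sum * ((1 + b) / (1 + 2 * b)) ≤ sV r` since `x * ((1 + b) / (1 + 2 * b)) ≤ pg x`
(`(1 + x) (1 + 2 b) ≥ (1 + b) (1 + 2 x)` iff `x ≤ b`);  `0 ≤ r.sum`.
Then `merge_real` / `merge_real_lt` with `r := r.sum`, `Ur := sU r`, `Vr := sV r`, multiplied by
`sP r > 0`. -/

namespace Vale.Agent.H51.Prism

theorem merge_sP_ge_one (b : ℝ) (r : Multiset ℝ) (hr : ∀ x ∈ r, 0 ≤ x ∧ x ≤ b) : 1 ≤ sP r := by
  induction r using Multiset.induction_on with
  | empty => simp [sP]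
  | cons x r ih =>
    have hx := hr x (Multiset.mem_cons_self x r)
    have ih' := ih (fun y hy => hr y (Multiset.mem_cons_of_mem hy))
    have e : sP (x ::ₘ r) = (1 + 2 * x) * sP r := by
      simp [sP]
    rw [e]
    nlinarith [hx.1]

theorem merge_sum_nonneg (b : ℝ) (r : Multiset ℝ) (hr : ∀ x ∈ r, 0 ≤ x ∧ x ≤ b) : 0 ≤ r.sum :=
  Multiset.sum_nonneg (fun x hx => (hr x hx).1)

theorem merge_sU_le (b : ℝ) (hb : 0 ≤ b) (r : Multiset ℝ) (hr : ∀ x ∈ r, 0 ≤ x ∧ x ≤ b) :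
    sU r ≤ r.sum * (1 + b) * (1 + 2 * b) := by
  induction r using Multiset.induction_on with
  | empty => simp [sU]
  | cons x r ih =>
    have hx := hr x (Multiset.mem_cons_self x r)
    have ih' := ih (fun y hy => hr y (Multiset.mem_cons_of_mem hy))
    have e : sU (x ::ₘ r) = pf x + sU r := by
      simp [sU]
    have hpf : pf x ≤ x * (1 + b) * (1 + 2 * b) := by
      unfold pf
      have h1 : (1 + x) * (1 + 2 * x) ≤ (1 + b) * (1 + 2 * b) := by nlinarith [hx.1, hx.2]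
      have h2 := mul_le_mul_of_nonneg_left h1 hx.1
      nlinarith [h2]
    rw [e, Multiset.sum_cons]
    nlinarith [hpf, ih']

theorem merge_sV_ge (b : ℝ) (hb : 0 ≤ b) (r : Multiset ℝ) (hr : ∀ x ∈ r, 0 ≤ x ∧ x ≤ b) :
    r.sum * (1 + b) / (1 + 2 * b) ≤ sV r := by
  induction r using Multiset.induction_on with
  | empty => simp [sV]
  | cons x r ih =>
    have hx := hr x (Multiset.mem_cons_self x r)
    have ih' := ih (fun y hy => hr y (Multiset.mem_cons_of_mem hy))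
    have e : sV (x ::ₘ r) = pg x + sV r := by
      simp [sV]
    have hb2 : 0 < 1 + 2 * b := by linarith
    have hx2 : 0 < 1 + 2 * x := by linarith [hx.1]
    have hpg : x * (1 + b) / (1 + 2 * b) ≤ pg x := by
      unfold pg
      rw [div_le_div_iff₀ hb2 hx2]
      have h1 : (1 + b) * (1 + 2 * x) ≤ (1 + x) * (1 + 2 * b) := by nlinarith [hx.1, hx.2]
      have h2 := mul_le_mul_of_nonneg_left h1 hx.1
      nlinarith [h2]
    have e2 : (x ::ₘ r).sum * (1 + b) / (1 + 2 * b)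
        = x * (1 + b) / (1 + 2 * b) + r.sum * (1 + b) / (1 + 2 * b) := by
      rw [Multiset.sum_cons]
      ring
    rw [e, e2]
    linarith

theorem merge_sG_cons2 (a b : ℝ) (r : Multiset ℝ) :
    sG (a ::ₘ b ::ₘ r)
      = sP r * ((1 + 2 * a) * (1 + 2 * b) * (sU r + pf a + pf b) * (sV r + pg a + pg b)) := by
  simp only [sG, sP, sU, sV, Multiset.map_cons, Multiset.prod_cons, Multiset.sum_cons]
  ring

theorem merge_sG_cons1 (c : ℝ) (r : Multiset ℝ) :
    sG (c ::ₘ r) = sP r * ((1 + 2 * c) * (sU r + pf c) * (sV r + pg c)) := by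
  simp only [sG, sP, sU, sV, Multiset.map_cons, Multiset.prod_cons, Multiset.sum_cons]
  ring

/-- PR-13 -/
theorem sG_merge_le (a b : ℝ) (r : Multiset ℝ) (hb : 0 ≤ b) (hab : b ≤ a)
    (hr : ∀ x ∈ r, 0 ≤ x ∧ x ≤ b) (hsum : a + b + r.sum = 1) :
    sG (a ::ₘ b ::ₘ r) ≤ sG ((a + b) ::ₘ r) := by
  rw [merge_sG_cons2, merge_sG_cons1]
  have hP : 0 ≤ sP r := le_trans zero_le_one (merge_sP_ge_one b r hr)
  exact mul_le_mul_of_nonneg_left
    (merge_real a b r.sum (sU r) (sV r) hb hab (merge_sum_nonneg b r hr) hsum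
      (merge_sU_le b hb r hr) (merge_sV_ge b hb r hr)) hP

/-- PR-13 -/
theorem sG_merge_lt (a b : ℝ) (r : Multiset ℝ) (hb : 0 < b) (hab : b ≤ a)
    (hr : ∀ x ∈ r, 0 ≤ x ∧ x ≤ b) (hsum : a + b + r.sum = 1) :
    sG (a ::ₘ b ::ₘ r) < sG ((a + b) ::ₘ r) := by
  rw [merge_sG_cons2, merge_sG_cons1]
  have hP : 0 < sP r := lt_of_lt_of_le zero_lt_one (merge_sP_ge_one b r hr)
  exact mul_lt_mul_of_pos_left
    (merge_real_lt a b r.sum (sU r) (sV r) hb hab (merge_sum_nonneg b r hr) hsum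
      (merge_sU_le b hb.le r hr) (merge_sV_ge b hb.le r hr)) hP

end Vale.Agent.H51.Prism
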