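import Mathlib
import Vale.Agent.H51.Prism.Defs
import Vale.Agent.H51.Prism.Merge

/-! Row PR-14: the core inequality `sG s ≤ 12` for nonnegative atoms of total mass one, by induction
on the number of atoms.  Model: `Vale/Agent/H51/Trunc/Core.lean` (`core_split`, `core_le_aux`,
`sF_le`, `sF_lt`), with the LARGEST atom `a` (`Multiset.exists_max_image`) and then the largest
atom `b` of the rest, so that `s = a ::ₘ b ::ₘ r` with `x ≤ b ≤ a` for all `x ∈ r`.
`card s = 0`: impossible (`s.sum = 0 ≠ 1`).  `card s = 1`: `s = {1}` and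
`sG {1} = 3 * 6 * (2/3) = 12` (`pf 1 = 6`, `pg 1 = 2/3`).  `card s ≥ 2`: `sG_merge_le` and the
induction hypothesis for `(a + b) ::ₘ r` (same sum, atoms `≥ 0`, one atom less).
Strict version: first step `sG_merge_lt` (`b > 0`), then `sG_le`. -/

namespace Vale.Agent.H51.Prism

lemma core_singleton : sG ({1} : Multiset ℝ) = 12 := by
  unfold sG sP sU sV pf pg
  simp only [Multiset.map_singleton, Multiset.prod_singleton, Multiset.sum_singleton]
  norm_num

lemma core_split (s : Multiset ℝ) (n : ℕ) (hcard : Multiset.card s = n + 2) :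
    ∃ (a b : ℝ) (r : Multiset ℝ), s = a ::ₘ b ::ₘ r ∧ Multiset.card r = n ∧
      b ≤ a ∧ ∀ x ∈ r, x ≤ b := by
  have hne : s ≠ 0 := by
    intro h
    rw [h] at hcard
    simp at hcard
  obtain ⟨a, ha, hmax⟩ := Multiset.exists_max_image id hne
  obtain ⟨s', rfl⟩ := Multiset.exists_cons_of_mem ha
  have hcard' : Multiset.card s' = n + 1 := by
    rw [Multiset.card_cons] at hcard
    omega
  have hne' : s' ≠ 0 := by
    intro h
    rw [h] at hcard'
    simp at hcard'
  obtain ⟨b, hb, hmax'⟩ := Multiset.exists_max_image id hne'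
  obtain ⟨r, rfl⟩ := Multiset.exists_cons_of_mem hb
  refine ⟨a, b, r, rfl, ?_, hmax b (by simp), fun x hx => hmax' x (by simp [hx])⟩
  rw [Multiset.card_cons] at hcard'
  omega

lemma core_le_aux : ∀ n : ℕ, ∀ s : Multiset ℝ, Multiset.card s = n → (∀ x ∈ s, 0 ≤ x) →
    s.sum = 1 → sG s ≤ 12 := by
  intro n
  induction n with
  | zero =>
    intro s hcard hs hsum
    rw [Multiset.card_eq_zero] at hcard
    rw [hcard, Multiset.sum_zero] at hsum
    norm_num at hsum
  | succ n ih =>
    intro s hcard hs hsum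
    rcases n with _ | n
    · obtain ⟨t, rfl⟩ := Multiset.card_eq_one.1 hcard
      rw [Multiset.sum_singleton] at hsum
      subst hsum
      exact core_singleton.le
    · obtain ⟨a, b, r, rfl, hcr, hba, hrb⟩ := core_split s n hcard
      have hb : 0 ≤ b := hs b (by simp)
      have hr : ∀ x ∈ r, 0 ≤ x ∧ x ≤ b := fun x hx => ⟨hs x (by simp [hx]), hrb x hx⟩
      have hsum' : a + b + r.sum = 1 := by
        rw [← hsum, Multiset.sum_cons, Multiset.sum_cons, add_assoc]
      have hm := sG_merge_le a b r hb hba hr hsum'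
      have hs'' : ∀ x ∈ (a + b) ::ₘ r, 0 ≤ x := by
        intro x hx
        rw [Multiset.mem_cons] at hx
        rcases hx with rfl | hx
        · exact add_nonneg (hs a (by simp)) hb
        · exact hs x (by simp [hx])
      have hih := ih ((a + b) ::ₘ r) (by rw [Multiset.card_cons, hcr]) hs''
        (by rw [Multiset.sum_cons]; exact hsum')
      exact hm.trans hih

/-- PR-14 -/
theorem sG_le (s : Multiset ℝ) (hs : ∀ x ∈ s, 0 ≤ x) (hsum : s.sum = 1) : sG s ≤ 12 := by
  exact core_le_aux (Multiset.card s) s rfl hs hsum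

/-- PR-14 -/
theorem sG_lt (s : Multiset ℝ) (hs : ∀ x ∈ s, 0 < x) (hsum : s.sum = 1)
    (hcard : 2 ≤ Multiset.card s) : sG s < 12 := by
  obtain ⟨n, hn⟩ : ∃ n, Multiset.card s = n + 2 := ⟨Multiset.card s - 2, by omega⟩
  obtain ⟨a, b, r, rfl, hcr, hba, hrb⟩ := core_split s n hn
  have hb : 0 < b := hs b (by simp)
  have hr : ∀ x ∈ r, 0 ≤ x ∧ x ≤ b := fun x hx => ⟨(hs x (by simp [hx])).le, hrb x hx⟩
  have hsum' : a + b + r.sum = 1 := by
    rw [← hsum, Multiset.sum_cons, Multiset.sum_cons, add_assoc]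
  have hm := sG_merge_lt a b r hb hba hr hsum'
  have hs'' : ∀ x ∈ (a + b) ::ₘ r, 0 ≤ x := by
    intro x hx
    rw [Multiset.mem_cons] at hx
    rcases hx with rfl | hx
    · exact (add_pos (hs a (by simp)) hb).le
    · exact (hs x (by simp [hx])).le
  have hle := sG_le ((a + b) ::ₘ r) hs'' (by rw [Multiset.sum_cons]; exact hsum')
  exact lt_of_lt_of_le hm hle

end Vale.Agent.H51.Prism
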