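import Mathlib
import Vale.Agent.H51.Prism.Defs
import Vale.Agent.H51.Trunc.DetRank

/-! Row PR-11: determinant of the base block `A i j = (if i = j then 2 else 1) * (H + h i + h j)`,
`H = pS1 h = ∑ h i > 0`.
`H • A = Matrix.of fun i j => (if i = j then H * (H + 2 * h i) else 0) + u1 i * u1 j - 1 * (u2 i * u2 j)`
with `u1 i = H + h i`, `u2 i = h i`; `Matrix.det_smul` (`Fintype.card_fin`) and
`Vale.Agent.H51.Trunc.det_diag_rank_two` (with `d i = H * (H + 2 * h i) ≠ 0`, `q = 1`) give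
`H ^ n * det A = (∏ i, H * (H + 2 * h i)) * ((1 + a) * (1 - c) + b ^ 2)`,
`a = ∑ (H + h i)^2 / (H (H + 2 h i))`, `c = ∑ (h i)^2 / (H (H + 2 h i))`,
`b = ∑ (H + h i) h i / (H (H + 2 h i))`.
With `S = ∑ i, H / (H + 2 * h i)` (and `∑ h i = H`, `∑ 1 = n`):
`a = (3 n + 2 + S) / 4`, `c = (2 - n + S) / 4`, `b = (n + 2 - S) / 4`
(termwise: (H + h)^2 / (H (H + 2 h)) = ((H + 2 h)/H + 2 + H/(H + 2 h)) / 4,
`h^2 / (H (H + 2 h)) = ((H + 2 h)/H - 2 + H/(H + 2 h)) / 4`,
(H + h) h / (H (H + 2 h)) = ((H + 2 h)/H - H/(H + 2 h)) / 4, and `∑ (H + 2 h i)/H = n + 2`),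
hence (1 + a) * (1 - c) + b ^ 2 = (n + 2) * b. -/

namespace Vale.Agent.H51.Prism

open Matrix Vale.Agent.H68

variable {n : ℕ}

/-- PR-11 -/
theorem det_prismA (hn : 0 < n) (h : Fin n → ℝ) (hh : ∀ i, 0 < h i) :
    (Matrix.of fun i j : Fin n => (if i = j then (2 : ℝ) else 1) * (pS1 h + h i + h j)).det
      = ((n : ℝ) + 2) * ((∏ i, (pS1 h + 2 * h i))
          * ∑ i, h i * (pS1 h + h i) / (pS1 h * (pS1 h + 2 * h i))) := by
  classical
  have hH : 0 < pS1 h := by
    unfold pS1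
    have : Nonempty (Fin n) := ⟨⟨0, hn⟩⟩
    exact Finset.sum_pos (fun i _ => hh i) Finset.univ_nonempty
  have hsum : ∑ i, h i = pS1 h := rfl
  generalize pS1 h = H at hH hsum ⊢
  have hd : ∀ i, H * (H + 2 * h i) ≠ 0 := fun i => by
    have h0 := hh i
    positivity
  have hsm : H • (Matrix.of fun i j : Fin n =>
        (if i = j then (2 : ℝ) else 1) * (H + h i + h j))
      = Matrix.of fun i j : Fin n => (if i = j then H * (H + 2 * h i) else 0)
          + (H + h i) * (H + h j) - 1 * (h i * h j) := by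
    ext i j
    simp only [Matrix.smul_apply, Matrix.of_apply, smul_eq_mul]
    by_cases hij : i = j
    · subst hij
      simp only [if_true]
      ring
    · simp only [if_neg hij]
      ring
  have hdet := congrArg Matrix.det hsm
  rw [Matrix.det_smul, Fintype.card_fin,
    Vale.Agent.H51.Trunc.det_diag_rank_two (fun i => H * (H + 2 * h i)) (fun i => H + h i)
      (fun i => h i) 1 hd,
    Finset.prod_mul_distrib, Finset.prod_const, Finset.card_univ, Fintype.card_fin] at hdet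
  have hHn : H ^ n ≠ 0 := pow_ne_zero _ hH.ne'
  have hy : ∑ i, h i / H = 1 := by rw [← Finset.sum_div, hsum, div_self hH.ne']
  have key : ∀ (α β γ : ℝ), ∑ i : Fin n, (α + β * (h i / H) + γ * (H / (H + 2 * h i)))
      = α * n + β + γ * ∑ i : Fin n, H / (H + 2 * h i) := by
    intro α β γ
    rw [Finset.sum_add_distrib, Finset.sum_add_distrib, ← Finset.mul_sum, ← Finset.mul_sum, hy,
      Finset.sum_const, Finset.card_univ, Fintype.card_fin, nsmul_eq_mul]
    ring
  have ha : ∑ i, (H + h i) ^ 2 / (H * (H + 2 * h i))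
      = 3 / 4 * n + 1 / 2 + 1 / 4 * ∑ i : Fin n, H / (H + 2 * h i) := by
    rw [← key]
    apply Finset.sum_congr rfl
    intro i _
    have h0 := hh i
    have h1 : H + 2 * h i ≠ 0 := by positivity
    field_simp
    ring
  have hc : ∑ i, (h i) ^ 2 / (H * (H + 2 * h i))
      = -(1 / 4) * n + 1 / 2 + 1 / 4 * ∑ i : Fin n, H / (H + 2 * h i) := by
    rw [← key]
    apply Finset.sum_congr rfl
    intro i _
    have h0 := hh i
    have h1 : H + 2 * h i ≠ 0 := by positivity
    field_simp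
    ring
  have hb : ∑ i, (H + h i) * h i / (H * (H + 2 * h i))
      = 1 / 4 * n + 1 / 2 + -(1 / 4) * ∑ i : Fin n, H / (H + 2 * h i) := by
    rw [← key]
    apply Finset.sum_congr rfl
    intro i _
    have h0 := hh i
    have h1 : H + 2 * h i ≠ 0 := by positivity
    field_simp
    ring
  have hb' : ∑ i, h i * (H + h i) / (H * (H + 2 * h i))
      = 1 / 4 * n + 1 / 2 + -(1 / 4) * ∑ i : Fin n, H / (H + 2 * h i) := by
    rw [← hb]
    apply Finset.sum_congr rfl
    intro i _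
    rw [mul_comm (h i)]
  rw [ha, hc, hb] at hdet
  rw [hb']
  apply mul_left_cancel₀ hHn
  rw [hdet]
  ring

end Vale.Agent.H51.Prism
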