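import Mathlib
import Vale.Agent.H51.Prism.Defs

/-! Row PR-10: reduction of `det (prismQ h)` to the determinant of the base block.
Let `S` be the matrix `1 - (1/2) e_0 (0, h)ᵀ`, i.e. `S 0 0 = 1`, `S 0 j.succ = -(h j) / 2`,
`S i.succ b = if i.succ = b then 1 else 0` (upper triangular with unit diagonal, `det S = 1`:
`Matrix.det_of_upperTriangular`).  Then `(S * prismQ h)` has row `0` equal to
`((H^3 + 3 H p2 + 2 p3) / 12, 0, ..., 0)` and rows `i.succ` equal to those of `prismQ h`:
`prismQ h 0 j.succ - (1/2) ∑ i, h i * prismQ h i.succ j.succ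
   = (H^2 + p2)/2 + h j (H + h j) - (1/2) (H^2 + p2 + 2 H h j + 2 h j ^ 2) = 0`,
`prismQ h 0 0 - (1/2) ∑ i, h i * prismQ h i.succ 0
   = (H^3 + 3 H p2 + 2 p3)/3 - (1/2) (H (H^2 + p2)/2 + H p2 + p3) = (H^3 + 3 H p2 + 2 p3)/12`
(`H = pS1 h = ∑ h i`, `p2 = pS2 h`, `p3 = pS3 h`; sums with `if i = j`: `Finset.sum_ite_eq`).
Expand `det (S * prismQ h)` along row `0` (`Matrix.det_succ_row_zero`): only the term `j = 0` survives
and the minor is the base block.  Alternative: `Matrix.det_eq_of_forall_row_eq_smul_add_const`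
does not apply directly (several rows are added); any route is fine. -/

namespace Vale.Agent.H51.Prism

open Matrix Vale.Agent.H68

variable {n : ℕ}

/-- the unitriangular matrix of the row operation: `1 - (1/2) e_0 (0, h)ᵀ` -/
noncomputable def detRed_S (h : Fin n → ℝ) : Matrix (Fin (n + 1)) (Fin (n + 1)) ℝ :=
  Matrix.of fun a b =>
    Fin.cases (motive := fun _ => ℝ)
      (Fin.cases (motive := fun _ => ℝ) 1 (fun j => -(h j) / 2) b)
      (fun i => if i.succ = b then 1 else 0) a

lemma detRed_S_zero_zero (h : Fin n → ℝ) : detRed_S h 0 0 = 1 := rfl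

lemma detRed_S_zero_succ (h : Fin n → ℝ) (j : Fin n) : detRed_S h 0 j.succ = -(h j) / 2 := rfl

lemma detRed_S_succ (h : Fin n → ℝ) (i : Fin n) (b : Fin (n + 1)) :
    detRed_S h i.succ b = if i.succ = b then 1 else 0 := rfl

lemma detRed_det_S (h : Fin n → ℝ) : (detRed_S h).det = 1 := by
  have hT : (detRed_S h).IsUpperTriangular := by
    intro a b hab
    simp only [id] at hab
    induction a using Fin.cases with
    | zero => exact absurd hab (Fin.not_lt_zero b)
    | succ i =>
      rw [detRed_S_succ, if_neg (ne_of_gt hab)]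
  rw [Matrix.det_of_isUpperTriangular hT, Fin.prod_univ_succ, detRed_S_zero_zero, one_mul]
  apply Finset.prod_eq_one
  intro i _
  rw [detRed_S_succ, if_pos rfl]

/-- the power-sum identity behind the row operation -/
lemma detRed_sum (h : Fin n → ℝ) (A B : ℝ) :
    ∑ i, (-(h i) / 2) * (A + h i * (B + h i))
      = -(1 / 2) * (A * pS1 h + B * pS2 h + pS3 h) := by
  unfold pS1 pS2 pS3
  have e : A * ∑ i, h i + B * ∑ i, h i ^ 2 + ∑ i, h i ^ 3
      = ∑ i, (A * h i + B * h i ^ 2 + h i ^ 3) := by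
    rw [Finset.mul_sum, Finset.mul_sum, ← Finset.sum_add_distrib, ← Finset.sum_add_distrib]
  rw [e, Finset.mul_sum]
  refine Finset.sum_congr rfl fun i _ => ?_
  ring

/-- rows `i + 1` are unchanged -/
lemma detRed_mul_succ (h : Fin n → ℝ) (i : Fin n) (b : Fin (n + 1)) :
    (detRed_S h * prismQ h) i.succ b = prismQ h i.succ b := by
  rw [Matrix.mul_apply]
  simp only [detRed_S_succ, ite_mul, one_mul, zero_mul]
  rw [Finset.sum_ite_eq]
  simp

/-- row `0`, column `0` -/
lemma detRed_mul_zero_zero (h : Fin n → ℝ) :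
    (detRed_S h * prismQ h) 0 0 = (pS1 h ^ 3 + 3 * pS1 h * pS2 h + 2 * pS3 h) / 12 := by
  rw [Matrix.mul_apply, Fin.sum_univ_succ]
  simp only [detRed_S_zero_zero, detRed_S_zero_succ, prismQ_zero_zero, prismQ_succ_zero, one_mul]
  rw [detRed_sum h ((pS1 h ^ 2 + pS2 h) / 2) (pS1 h)]
  ring

/-- row `0`, columns `j + 1` -/
lemma detRed_mul_zero_succ (h : Fin n → ℝ) (j : Fin n) :
    (detRed_S h * prismQ h) 0 j.succ = 0 := by
  rw [Matrix.mul_apply, Fin.sum_univ_succ]
  simp only [detRed_S_zero_zero, detRed_S_zero_succ, prismQ_zero_succ, prismQ_succ_succ, one_mul]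
  have e : ∀ i : Fin n, (-(h i) / 2) * ((if i = j then (2 : ℝ) else 1) * (pS1 h + h i + h j))
      = (-(h i) / 2) * ((pS1 h + h j) + h i * (0 + 1))
        + (if i = j then (-(h i) / 2) * (pS1 h + h i + h j) else 0) := by
    intro i
    by_cases hij : i = j
    · rw [if_pos hij, if_pos hij]
      ring
    · rw [if_neg hij, if_neg hij]
      ring
  have e2 : ∑ i, (-(h i) / 2) * ((pS1 h + h j) + h i * (0 + 1))
      = -(1 / 2) * ((pS1 h + h j) * pS1 h + pS2 h) := by
    unfold pS1 pS2
    have e3 : (∑ i, h i + h j) * ∑ i, h i + ∑ i, h i ^ 2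
        = ∑ i, ((∑ i, h i + h j) * h i + h i ^ 2) := by
      rw [Finset.mul_sum, ← Finset.sum_add_distrib]
    rw [e3, Finset.mul_sum]
    refine Finset.sum_congr rfl fun i _ => ?_
    ring
  rw [Finset.sum_congr rfl (fun i _ => e i), Finset.sum_add_distrib, e2, Finset.sum_ite_eq']
  simp only [Finset.mem_univ, if_true]
  ring

/-- PR-10 -/
theorem det_prismQ_reduce (h : Fin n → ℝ) :
    (prismQ h).det = ((pS1 h ^ 3 + 3 * pS1 h * pS2 h + 2 * pS3 h) / 12)
      * (Matrix.of fun i j : Fin n => (if i = j then (2 : ℝ) else 1) * (pS1 h + h i + h j)).det := by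
  have h1 : (prismQ h).det = (detRed_S h * prismQ h).det := by
    rw [Matrix.det_mul, detRed_det_S, one_mul]
  rw [h1, Matrix.det_succ_row_zero, Fin.sum_univ_succ]
  have h2 : ∑ j : Fin n, (-1 : ℝ) ^ ((j.succ : Fin (n + 1)) : ℕ)
      * (detRed_S h * prismQ h) 0 j.succ
      * ((detRed_S h * prismQ h).submatrix Fin.succ (j.succ).succAbove).det = 0 := by
    refine Finset.sum_eq_zero fun j _ => ?_
    rw [detRed_mul_zero_succ, mul_zero, zero_mul]
  rw [h2, add_zero, detRed_mul_zero_zero, Fin.succAbove_zero]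
  have h3 : (detRed_S h * prismQ h).submatrix Fin.succ Fin.succ
      = Matrix.of fun i j : Fin n => (if i = j then (2 : ℝ) else 1) * (pS1 h + h i + h j) := by
    ext i j
    rw [Matrix.submatrix_apply, detRed_mul_succ, prismQ_succ_succ]
    rfl
  rw [h3]
  simp

end Vale.Agent.H51.Prism
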