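import Mathlib
import Vale.Agent.H51.Prism.Defs
import Vale.Agent.H51.Prism.Core

/-! Row PR-15: from the closed form `prismFn h` to the multiset inequality.
`H = pS1 h = ∑ h i > 0`, atoms `x i = h i / H` (sum one, `Finset.sum_div`), multiset
`s = Finset.univ.val.map (fun i => h i / H)` (`Multiset.map_map`, `Finset.prod_map_val`,
`Finset.sum_map_val`, `Multiset.card_map`, `Finset.card_univ`, `Fintype.card_fin`).
`∏ (H + 2 h i) = H ^ n * sP s` (`H + 2 h i = H * (1 + 2 x i)`, `Finset.prod_mul_distrib`,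
`Finset.prod_const`);  `∑ h i (H + h i) / (H (H + 2 h i)) = sV s` (termwise, `field_simp`);
`H^3 + 3 H p2 + 2 p3 = H^3 * sU s` because `pf x = x + 3 x^2 + 2 x^3` and `∑ x i = 1`.
Then `sG_lt` (all `x i > 0`, `card = n ≥ 2`). -/

namespace Vale.Agent.H51.Prism

variable {n : ℕ}

lemma fnLt_pS1_pos (hn : 0 < n) (h : Fin n → ℝ) (hh : ∀ i, 0 < h i) : 0 < pS1 h := by
  have hne : Nonempty (Fin n) := ⟨⟨0, hn⟩⟩
  unfold pS1
  exact Finset.sum_pos (fun i _ => hh i) Finset.univ_nonempty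

/-- PR-15 -/
theorem prismFn_eq_sG (hn : 0 < n) (h : Fin n → ℝ) (hh : ∀ i, 0 < h i) :
    prismFn h = pS1 h ^ (n + 3)
      * (sG ((Finset.univ : Finset (Fin n)).val.map (fun i => h i / pS1 h)) / 12) := by
  have hH : 0 < pS1 h := fnLt_pS1_pos hn h hh
  have hH0 : pS1 h ≠ 0 := hH.ne'
  have hP : sP ((Finset.univ : Finset (Fin n)).val.map (fun i => h i / pS1 h))
      = ∏ i, (1 + 2 * (h i / pS1 h)) := by
    unfold sP
    rw [Multiset.map_map]
    exact Finset.prod_map_val _ _
  have hU : sU ((Finset.univ : Finset (Fin n)).val.map (fun i => h i / pS1 h))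
      = ∑ i, pf (h i / pS1 h) := by
    unfold sU
    rw [Multiset.map_map]
    exact Finset.sum_map_val _ _
  have hV : sV ((Finset.univ : Finset (Fin n)).val.map (fun i => h i / pS1 h))
      = ∑ i, pg (h i / pS1 h) := by
    unfold sV
    rw [Multiset.map_map]
    exact Finset.sum_map_val _ _
  have h1 : ∏ i, (pS1 h + 2 * h i) = pS1 h ^ n * ∏ i, (1 + 2 * (h i / pS1 h)) := by
    have e : ∀ i, pS1 h + 2 * h i = pS1 h * (1 + 2 * (h i / pS1 h)) := by
      intro i
      field_simp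
    rw [Finset.prod_congr rfl (fun i _ => e i), Finset.prod_mul_distrib, Finset.prod_const,
      Finset.card_univ, Fintype.card_fin]
  have h2 : ∑ i, h i * (pS1 h + h i) / (pS1 h * (pS1 h + 2 * h i))
      = ∑ i, pg (h i / pS1 h) := by
    refine Finset.sum_congr rfl fun i _ => ?_
    unfold pg
    have hi := hh i
    have e1 : pS1 h + 2 * h i ≠ 0 := by positivity
    have e2 : 1 + 2 * (h i / pS1 h) ≠ 0 := by positivity
    field_simp
  have h3 : pS1 h ^ 3 + 3 * pS1 h * pS2 h + 2 * pS3 h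
      = pS1 h ^ 3 * ∑ i, pf (h i / pS1 h) := by
    rw [Finset.mul_sum]
    have e : ∀ i, pS1 h ^ 3 * pf (h i / pS1 h)
        = pS1 h ^ 2 * h i + 3 * pS1 h * h i ^ 2 + 2 * h i ^ 3 := by
      intro i
      unfold pf
      field_simp
      ring
    rw [Finset.sum_congr rfl (fun i _ => e i), Finset.sum_add_distrib, Finset.sum_add_distrib,
      ← Finset.mul_sum, ← Finset.mul_sum, ← Finset.mul_sum]
    have e3 : ∑ i, h i = pS1 h := rfl
    have e4 : ∑ i, h i ^ 2 = pS2 h := rfl
    have e5 : ∑ i, h i ^ 3 = pS3 h := rfl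
    rw [e3, e4, e5]
    ring
  unfold prismFn sG
  rw [hP, hU, hV, h1, h2, h3]
  ring

/-- PR-15 -/
theorem prismFn_lt (hn : 2 ≤ n) (h : Fin n → ℝ) (hh : ∀ i, 0 < h i) :
    prismFn h < pS1 h ^ (n + 3) := by
  have hn0 : 0 < n := by omega
  have hH : 0 < pS1 h := fnLt_pS1_pos hn0 h hh
  rw [prismFn_eq_sG hn0 h hh]
  have hs : sG ((Finset.univ : Finset (Fin n)).val.map (fun i => h i / pS1 h)) < 12 := by
    apply sG_lt
    · intro x hx
      rw [Multiset.mem_map] at hx
      obtain ⟨i, _, rfl⟩ := hx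
      exact div_pos (hh i) hH
    · rw [Finset.sum_map_val, ← Finset.sum_div]
      exact div_self hH.ne'
    · rw [Multiset.card_map]
      simpa using hn
  have hpos : 0 < pS1 h ^ (n + 3) := by positivity
  have hlt : sG ((Finset.univ : Finset (Fin n)).val.map (fun i => h i / pS1 h)) / 12 < 1 := by
    rw [div_lt_one (by norm_num)]
    exact hs
  calc pS1 h ^ (n + 3)
        * (sG ((Finset.univ : Finset (Fin n)).val.map (fun i => h i / pS1 h)) / 12)
      < pS1 h ^ (n + 3) * 1 := mul_lt_mul_of_pos_left hlt hpos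
    _ = pS1 h ^ (n + 3) := mul_one _

end Vale.Agent.H51.Prism
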