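import Mathlib
import Vale.Agent.H51.Prism.Defs

/-! Row PR-7: the matrix `prismW v` (column `0` is `lift (v 0) - lift (v 1)`, column `j.succ` is
`lift (v j.succ)`).
`det_prismW`: `prismW v` is `liftMat v` with column `0` replaced by column `0` minus column `1`
(`Matrix.det_updateCol_add_smul_self` with `c = -1`, or `Matrix.det_transpose` and the row version;
`(0 : Fin (n + 1)) ≠ 1` because `0 < n`).
`prismW_mulVec_zero`: row `0` of `prismW v` is `(0, 1, ..., 1)` (`liftMat_zero`).
`prismW_mulVec_succ`: `Fin.sum_univ_succ`, `liftMat_succ`.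
`prismR_zero_zero`: by `prismW_mulVec_zero`-type computations the entry is
`∑ i, ∑ j, prismQ h i.succ j.succ = ∑ i, ∑ j, (if i = j then 2 else 1) * (H + h i + h j)
 = H * (n + 1) * (n + 2)`, `H = pS1 h`. -/

namespace Vale.Agent.H51.Prism

open Matrix Vale.Agent.H68

variable {n : ℕ}

/-- PR-7 -/
theorem det_prismW (hn : 0 < n) (v : Fin (n + 1) → Fin n → ℝ) :
    (prismW v).det = (liftMat v).det := by
  obtain ⟨m, rfl⟩ : ∃ m, n = m + 1 := ⟨n - 1, by omega⟩
  have h01 : (0 : Fin (m + 1 + 1)) ≠ 1 := Fin.zero_ne_one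
  have hW : prismW v = (liftMat v).updateCol 0
      (fun k => liftMat v k 0 + (-1 : ℝ) • liftMat v k 1) := by
    ext a b
    refine Fin.cases ?_ (fun j => ?_) b
    · rw [Matrix.updateCol_self, prismW_zero]
      simp only [smul_eq_mul]
      ring
    · rw [Matrix.updateCol_ne (Fin.succ_ne_zero j), prismW_succ]
  rw [hW]
  exact Matrix.det_updateCol_add_smul_self (liftMat v) h01 (-1)

/-- PR-7 -/
theorem prismW_mulVec_zero (v : Fin (n + 1) → Fin n → ℝ) (s : Fin (n + 1) → ℝ) :
    (prismW v).mulVec s 0 = ∑ i : Fin n, s i.succ := by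
  simp [Matrix.mulVec, dotProduct, Fin.sum_univ_succ]

/-- PR-7 -/
theorem prismW_mulVec_succ (v : Fin (n + 1) → Fin n → ℝ) (s : Fin (n + 1) → ℝ) (j : Fin n) :
    (prismW v).mulVec s j.succ = (∑ i : Fin n, s i.succ • v i.succ + s 0 • (v 0 - v 1)) j := by
  simp only [Matrix.mulVec, dotProduct, Fin.sum_univ_succ, prismW_zero, prismW_succ,
    liftMat_succ, Pi.add_apply, Finset.sum_apply, Pi.smul_apply, Pi.sub_apply, smul_eq_mul]
  have e : ∑ x : Fin n, v x.succ j * s x.succ = ∑ x : Fin n, s x.succ * v x.succ j :=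
    Finset.sum_congr rfl (fun x _ => mul_comm _ _)
  rw [e]
  ring

/-- PR-7 -/
theorem prismR_zero_zero (v : Fin (n + 1) → Fin n → ℝ) (h : Fin n → ℝ) :
    (prismW v * prismQ h * (prismW v).transpose) 0 0
      = pS1 h * (((n : ℝ) + 1) * ((n : ℝ) + 2)) := by
  have key : ∀ i j : Fin n, (if i = j then (2 : ℝ) else 1) * (pS1 h + h i + h j)
      = (pS1 h + h i + h j) + (if i = j then (pS1 h + h i + h j) else 0) := by
    intro i j
    split_ifs <;> ring
  have hS : ∑ i, h i = pS1 h := rfl
  rw [Matrix.mul_apply]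
  simp only [Matrix.transpose_apply, Matrix.mul_apply, Fin.sum_univ_succ, prismW_zero,
    prismW_succ, liftMat_zero, sub_self, mul_zero, zero_mul, zero_add, mul_one, one_mul,
    prismQ_succ_succ, key, Finset.sum_add_distrib, Finset.sum_ite_eq',
    Finset.mem_univ, if_true, Finset.sum_const, Finset.card_univ, Fintype.card_fin,
    nsmul_eq_mul, ← Finset.mul_sum, hS]
  ring

end Vale.Agent.H51.Prism
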