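import Mathlib
import Vale.Agent.H51.Prism.Defs
import Vale.Agent.H51.Prism.PrismW

/-! Row PR-8: membership in the prism.  Write `W = prismW v` (invertible: `det_prismW`, `hW`),
`d = v 0 - v 1`.
(→) `H68.mem_convexHull_range_iff`: `x = ∑ k, t k • prismPts v h k`, `t ≥ 0`, `∑ t = 1`; split the sum
over `Fin (n + n)` (`Fin.sum_univ_add`, `Fin.append_left`, `Fin.append_right`) and put
`s 0 = ∑ i, t (Fin.natAdd n i) * h i`, `s i.succ = t (Fin.castAdd n i) + t (Fin.natAdd n i)`
(`s = Fin.cons _ _`).  Then `W.mulVec s = lift x` (`prismW_mulVec_zero`, `prismW_mulVec_succ`),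
so `W⁻¹.mulVec (lift x) = s`, and `s ∈ Om h` because `t ≥ 0`, `h > 0`.
(←) `s = W⁻¹.mulVec (lift x) ∈ Om h`, `W.mulVec s = lift x`: row `0` gives `∑ i, s i.succ = 1`, the
other rows give `x = ∑ i, s i.succ • v i.succ + s 0 • d`.  `g = ∑ i, h i * s i.succ > 0` (all `h i > 0`,
`s i.succ ≥ 0` with sum `1`), `θ = s 0 / g ∈ [0, 1]`, and
`x = ∑ i, ((1 - θ) * s i.succ) • v i.succ + ∑ i, (θ * s i.succ) • (v i.succ + h i • d)`
is a convex combination of the points of `prismPts v h`
(weights `Fin.append (fun i => (1 - θ) * s i.succ) (fun i => θ * s i.succ)`). -/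

namespace Vale.Agent.H51.Prism

open Matrix Set Vale.Agent.H68

variable {n : ℕ}

/-- the first `n` points of the prism -/
theorem mem_prismPts_left (v : Fin (n + 1) → Fin n → ℝ) (h : Fin n → ℝ) (i : Fin n) :
    prismPts v h (Fin.castAdd n i) = v i.succ := by
  unfold prismPts
  rw [Fin.append_left]

/-- the last `n` points of the prism -/
theorem mem_prismPts_right (v : Fin (n + 1) → Fin n → ℝ) (h : Fin n → ℝ) (i : Fin n) :
    prismPts v h (Fin.natAdd n i) = v i.succ + h i • (v 0 - v 1) := by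
  unfold prismPts
  rw [Fin.append_right]

/-- a combination of the prism points, regrouped -/
theorem mem_sum_split (v : Fin (n + 1) → Fin n → ℝ) (h : Fin n → ℝ) (t : Fin (n + n) → ℝ) :
    ∑ k, t k • prismPts v h k =
      ∑ i : Fin n, (t (Fin.castAdd n i) + t (Fin.natAdd n i)) • v i.succ +
        (∑ i : Fin n, t (Fin.natAdd n i) * h i) • (v 0 - v 1) := by
  rw [Fin.sum_univ_add]
  simp only [mem_prismPts_left, mem_prismPts_right, add_smul, smul_add, Finset.sum_add_distrib,
    Finset.sum_smul, mul_smul]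
  abel

/-- PR-8 -/
theorem mem_prism_iff (hn : 0 < n) (v : Fin (n + 1) → Fin n → ℝ) (hW : (liftMat v).det ≠ 0)
    (h : Fin n → ℝ) (hh : ∀ i, 0 < h i) (x : Fin n → ℝ) :
    x ∈ convexHull ℝ (Set.range (prismPts v h)) ↔ (prismW v)⁻¹.mulVec (lift x) ∈ Om h := by
  have hunit : IsUnit (prismW v).det := by
    rw [det_prismW hn v]
    exact isUnit_iff_ne_zero.mpr hW
  constructor
  · intro hx
    obtain ⟨t, ht0, ht1, htx⟩ := (mem_convexHull_range_iff (prismPts v h) x).mp hx
    obtain ⟨s, hs⟩ : ∃ s : Fin (n + 1) → ℝ, s = Fin.cons (∑ i : Fin n, t (Fin.natAdd n i) * h i)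
        (fun i : Fin n => t (Fin.castAdd n i) + t (Fin.natAdd n i)) := ⟨_, rfl⟩
    have hs0 : s 0 = ∑ i : Fin n, t (Fin.natAdd n i) * h i := by
      rw [hs]
      rfl
    have hss : ∀ i : Fin n, s i.succ = t (Fin.castAdd n i) + t (Fin.natAdd n i) := by
      intro i
      rw [hs]
      rfl
    have hWs : (prismW v).mulVec s = lift x := by
      funext a
      refine Fin.cases ?_ (fun j => ?_) a
      · rw [prismW_mulVec_zero, lift_zero]
        simp only [hss]
        rw [Finset.sum_add_distrib, ← Fin.sum_univ_add]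
        exact ht1
      · rw [prismW_mulVec_succ, lift_succ, ← htx, mem_sum_split]
        simp only [hss, hs0]
    have hinv : (prismW v)⁻¹.mulVec (lift x) = s := by
      rw [← hWs, Matrix.mulVec_mulVec, Matrix.nonsing_inv_mul _ hunit, Matrix.one_mulVec]
    rw [hinv]
    refine ⟨fun i => ?_, ?_, ?_⟩
    · rw [hss]
      exact add_nonneg (ht0 _) (ht0 _)
    · rw [hs0]
      exact Finset.sum_nonneg (fun i _ => mul_nonneg (ht0 _) (hh i).le)
    · rw [hs0]
      apply Finset.sum_le_sum
      intro i _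
      rw [hss]
      have h1 := mul_nonneg (hh i).le (ht0 (Fin.castAdd n i))
      nlinarith
  · intro hOm
    obtain ⟨s, hs⟩ : ∃ s : Fin (n + 1) → ℝ, s = (prismW v)⁻¹.mulVec (lift x) := ⟨_, rfl⟩
    rw [← hs] at hOm
    obtain ⟨hsn, hs0n, hs0g⟩ := hOm
    have hWs : (prismW v).mulVec s = lift x := by
      rw [hs, Matrix.mulVec_mulVec, Matrix.mul_nonsing_inv _ hunit, Matrix.one_mulVec]
    have hsum : ∑ i : Fin n, s i.succ = 1 := by
      rw [← prismW_mulVec_zero v s, hWs, lift_zero]
    have hx : ∀ j : Fin n, x j = (∑ i : Fin n, s i.succ • v i.succ + s 0 • (v 0 - v 1)) j := by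
      intro j
      rw [← prismW_mulVec_succ v s j, hWs, lift_succ]
    have hxv : x = ∑ i : Fin n, s i.succ • v i.succ + s 0 • (v 0 - v 1) := funext hx
    have hg : 0 < ∑ i : Fin n, h i * s i.succ := by
      have hex : ∃ i : Fin n, 0 < s i.succ := by
        by_contra hno
        push Not at hno
        have h2 : ∑ i : Fin n, s i.succ ≤ 0 := Finset.sum_nonpos (fun i _ => hno i)
        linarith
      obtain ⟨i0, hi0⟩ := hex
      exact Finset.sum_pos' (fun i _ => mul_nonneg (hh i).le (hsn i))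
        ⟨i0, Finset.mem_univ _, mul_pos (hh i0) hi0⟩
    obtain ⟨θ, hθ⟩ : ∃ θ : ℝ, θ = s 0 / (∑ i : Fin n, h i * s i.succ) := ⟨_, rfl⟩
    have hθ0 : 0 ≤ θ := by
      rw [hθ]
      exact div_nonneg hs0n hg.le
    have hθ1 : θ ≤ 1 := by
      rw [hθ, div_le_one hg]
      exact hs0g
    have hθg : θ * (∑ i : Fin n, h i * s i.succ) = s 0 := by
      rw [hθ]
      exact div_mul_cancel₀ _ hg.ne'
    rw [mem_convexHull_range_iff]
    refine ⟨Fin.append (fun i : Fin n => (1 - θ) * s i.succ) (fun i : Fin n => θ * s i.succ),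
      ?_, ?_, ?_⟩
    · intro k
      refine Fin.addCases (fun i => ?_) (fun i => ?_) k
      · rw [Fin.append_left]
        exact mul_nonneg (by linarith) (hsn i)
      · rw [Fin.append_right]
        exact mul_nonneg hθ0 (hsn i)
    · rw [Fin.sum_univ_add]
      simp only [Fin.append_left, Fin.append_right]
      rw [← Finset.mul_sum, ← Finset.mul_sum, hsum]
      ring
    · rw [mem_sum_split, hxv]
      simp only [Fin.append_left, Fin.append_right]
      have e1 : ∀ i : Fin n, (1 - θ) * s i.succ + θ * s i.succ = s i.succ := fun i => by ring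
      have e2 : ∑ i : Fin n, θ * s i.succ * h i = s 0 := by
        rw [← hθg, Finset.mul_sum]
        apply Finset.sum_congr rfl
        intro i _
        ring
      simp only [e1]
      rw [e2]

end Vale.Agent.H51.Prism
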