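import Mathlib
import Vale.Agent.H51.Prism.Defs
import Vale.Agent.H51.Prism.PrismW
import Vale.Agent.H51.Prism.Mem
import Vale.Agent.H51.Prism.ConeQ

/-! Row PR-9: the moment matrix of the prism.  Copy the proof of `H68.simplex_moment`
(file `Vale/Agent/H68/Simplex.lean`) with `W = prismW v` in place of `liftMat w` and the cone `Om h`
in place of the orthant:
`F y = if 0 < y 0 ∧ W⁻¹.mulVec y ∈ Om h then exp (-(y 0)) * (y a * y b) else 0`;
`F (W.mulVec s) = (Om h).indicator (fun s => exp (-∑ i, s i.succ) * ((W.mulVec s) a * (W.mulVec s) b)) s`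
(`prismW_mulVec_zero`; if `s ∈ Om h` and `∑ i, s i.succ = 0` then `s = 0` and both sides vanish);
expand `(W.mulVec s) a * (W.mulVec s) b = ∑ k, ∑ l, W a k * W b l * (s k * s l)`, so by
`cone_integrable`, `cone_integral`, `H68.integral_comp_mulVec`, `H68.integrable_comp_mulVec_iff`:
`∫ y, F y = |W.det| * (W * prismQ h * Wᵀ) a b`;
`H68.integral_cone` with `T = convexHull ℝ (range (prismPts v h))` (measurable: compact), using
`mem_prism_iff` and that `Om h` is a cone (`W⁻¹.mulVec (c • lift x) ∈ Om h ↔ W⁻¹.mulVec (lift x) ∈ Om h`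
for `c > 0`, `Matrix.mulVec_smul`); finally `det_prismW`. -/

namespace Vale.Agent.H51.Prism

open MeasureTheory Matrix Set Vale.Agent.H68

variable {n : ℕ}

/-- `Om h` is a cone. -/
lemma moment_smul_mem_Om (h : Fin n → ℝ) {c : ℝ} (hc : 0 < c) (s : Fin (n + 1) → ℝ) :
    c • s ∈ Om h ↔ s ∈ Om h := by
  have e : ∑ i : Fin n, h i * (c * s i.succ) = c * ∑ i : Fin n, h i * s i.succ := by
    rw [Finset.mul_sum]
    exact Finset.sum_congr rfl (fun i _ => by ring)
  constructor
  · rintro ⟨h1, h2, h3⟩
    simp only [Pi.smul_apply, smul_eq_mul] at h1 h2 h3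
    rw [e] at h3
    exact ⟨fun i => (mul_nonneg_iff_of_pos_left hc).mp (h1 i),
      (mul_nonneg_iff_of_pos_left hc).mp h2, le_of_mul_le_mul_left h3 hc⟩
  · rintro ⟨h1, h2, h3⟩
    refine ⟨fun i => ?_, ?_, ?_⟩
    · simp only [Pi.smul_apply, smul_eq_mul]
      exact mul_nonneg hc.le (h1 i)
    · simp only [Pi.smul_apply, smul_eq_mul]
      exact mul_nonneg hc.le h2
    · simp only [Pi.smul_apply, smul_eq_mul]
      rw [e]
      exact mul_le_mul_of_nonneg_left h3 hc.le

/-- PR-9 -/
theorem momentMatrix_prism (hn : 0 < n) (v : Fin (n + 1) → Fin n → ℝ)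
    (hW : (liftMat v).det ≠ 0) (h : Fin n → ℝ) (hh : ∀ i, 0 < h i) :
    momentMatrix (convexHull ℝ (Set.range (prismPts v h)))
      = (|(liftMat v).det| / ((n + 2).factorial : ℝ))
          • (prismW v * prismQ h * (prismW v).transpose) := by
  classical
  ext a b
  show ∫ x in convexHull ℝ (Set.range (prismPts v h)), lift x a * lift x b = _
  rw [Matrix.smul_apply, smul_eq_mul]
  set W := prismW v with hWdef
  have hdet : W.det = (liftMat v).det := det_prismW hn v
  have hW' : W.det ≠ 0 := by
    rw [hdet]
    exact hW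
  have hu : IsUnit W.det := isUnit_iff_ne_zero.mpr hW'
  have hh0 : ∀ i, 0 ≤ h i := fun i => (hh i).le
  let F : (Fin (n + 1) → ℝ) → ℝ := fun y =>
    if 0 < y 0 ∧ W⁻¹.mulVec y ∈ Om h then Real.exp (-(y 0)) * (y a * y b) else 0
  have hFG : ∀ s : Fin (n + 1) → ℝ, F (W.mulVec s)
      = (Om h).indicator (fun s => Real.exp (-∑ i : Fin n, s i.succ) *
          ((W.mulVec s) a * (W.mulVec s) b)) s := by
    intro s
    have h1 : W⁻¹.mulVec (W.mulVec s) = s := by
      rw [Matrix.mulVec_mulVec, Matrix.nonsing_inv_mul _ hu, Matrix.one_mulVec]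
    have h2 : W.mulVec s 0 = ∑ i : Fin n, s i.succ := prismW_mulVec_zero v s
    simp only [F, h1, h2, Set.indicator]
    by_cases hs : s ∈ Om h
    · by_cases hpos : 0 < ∑ i : Fin n, s i.succ
      · rw [if_pos ⟨hpos, hs⟩, if_pos hs]
      · rw [if_neg (fun h' => hpos h'.1), if_pos hs]
        have hsum : ∑ i : Fin n, s i.succ = 0 :=
          le_antisymm (not_lt.mp hpos) (Finset.sum_nonneg fun i _ => hs.1 i)
        have hz : ∀ i : Fin n, s i.succ = 0 := fun i =>
          (Finset.sum_eq_zero_iff_of_nonneg (fun i _ => hs.1 i)).mp hsum i (Finset.mem_univ i)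
        have hz0 : s 0 = 0 := by
          have h3 := hs.2.2
          have h4 : ∑ i : Fin n, h i * s i.succ = 0 :=
            Finset.sum_eq_zero (fun i _ => by rw [hz i, mul_zero])
          rw [h4] at h3
          exact le_antisymm h3 hs.2.1
        have hs0 : s = 0 := by
          funext m
          exact Fin.cases hz0 (fun i => hz i) m
        subst hs0
        simp
    · rw [if_neg (fun h' => hs h'.2), if_neg hs]
  have hexp : ∀ s : Fin (n + 1) → ℝ,
      (Om h).indicator (fun s => Real.exp (-∑ i : Fin n, s i.succ) *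
          ((W.mulVec s) a * (W.mulVec s) b)) s
      = ∑ k, ∑ l, W a k * W b l *
          (Om h).indicator (fun s => Real.exp (-∑ i : Fin n, s i.succ) * (s k * s l)) s := by
    intro s
    by_cases hs : s ∈ Om h
    · simp only [Set.indicator_of_mem hs, Matrix.mulVec, dotProduct]
      rw [Finset.sum_mul_sum, Finset.mul_sum]
      refine Finset.sum_congr rfl fun k _ => ?_
      rw [Finset.mul_sum]
      refine Finset.sum_congr rfl fun l _ => ?_
      ring
    · simp [Set.indicator_of_notMem hs]
  have hint : Integrable (fun s : Fin (n + 1) → ℝ => F (W.mulVec s)) := by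
    simp_rw [hFG, hexp]
    refine integrable_finsetSum _ fun k _ => integrable_finsetSum _ fun l _ => ?_
    exact (cone_integrable h hh0 k l).const_mul _
  have hFint : Integrable F := (integrable_comp_mulVec_iff W hW' F).mp hint
  have hval : ∫ s, F (W.mulVec s) = (W * prismQ h * W.transpose) a b := by
    simp_rw [hFG, hexp]
    rw [integral_finsetSum _ fun k _ => integrable_finsetSum _ fun l _ =>
      (cone_integrable h hh0 k l).const_mul _]
    have hk : ∀ k ∈ Finset.univ, ∫ s : Fin (n + 1) → ℝ, ∑ l, W a k * W b l *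
          (Om h).indicator (fun s => Real.exp (-∑ i : Fin n, s i.succ) * (s k * s l)) s
        = ∑ l, W a k * W b l * prismQ h k l := by
      intro k _
      rw [integral_finsetSum _ fun l _ => (cone_integrable h hh0 k l).const_mul _]
      refine Finset.sum_congr rfl fun l _ => ?_
      rw [integral_const_mul, cone_integral h hh0 k l]
    rw [Finset.sum_congr rfl hk]
    simp only [Matrix.mul_apply, Matrix.transpose_apply]
    rw [Finset.sum_comm]
    refine Finset.sum_congr rfl fun l _ => ?_
    rw [Finset.sum_mul]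
    refine Finset.sum_congr rfl fun k _ => ?_
    ring
  have hF1 : ∫ y, F y = |W.det| * (W * prismQ h * W.transpose) a b := by
    have h3 := integral_comp_mulVec W hW' F
    rw [hval] at h3
    have hpos : 0 < |W.det| := abs_pos.mpr hW'
    rw [h3]
    field_simp
  have hT : MeasurableSet (convexHull ℝ (Set.range (prismPts v h))) :=
    ((Set.finite_range _).isCompact_convexHull ℝ).isClosed.measurableSet
  have hF2 := integral_cone F hFint (convexHull ℝ (Set.range (prismPts v h))) hT a b
    (fun y hy => by
      simp only [F]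
      rw [if_neg (fun h' => (not_lt.mpr hy) h'.1)])
    (fun c hc x => by
      have hcone : W⁻¹.mulVec (c • lift x) ∈ Om h ↔
          x ∈ convexHull ℝ (Set.range (prismPts v h)) := by
        rw [mem_prism_iff hn v hW h hh x, Matrix.mulVec_smul]
        exact moment_smul_mem_Om h hc _
      simp only [F, Set.indicator]
      have h0 : (c • lift x) 0 = c := by simp
      rw [h0]
      by_cases hx : x ∈ convexHull ℝ (Set.range (prismPts v h))
      · rw [if_pos ⟨hc, hcone.mpr hx⟩, if_pos hx]
        simp only [Pi.smul_apply, smul_eq_mul]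
        ring
      · rw [if_neg (fun h' => hx (hcone.mp h'.2)), if_neg hx])
  rw [hF1] at hF2
  have hfac : (0:ℝ) < ((n + 2).factorial : ℝ) := by positivity
  rw [← hdet, div_mul_eq_mul_div, eq_div_iff hfac.ne', mul_comm, ← hF2]

end Vale.Agent.H51.Prism
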