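import Mathlib
import Vale.Agent.H68.IsoMain
import Vale.Agent.H68.CovPSD
import Vale.Agent.H51.Prism.Moment
import Vale.Agent.H51.Prism.DetRed
import Vale.Agent.H51.Prism.DetA
import Vale.Agent.H51.Prism.FnLt

/-! Row PR-16: assembly (the prism analogue of `Vale/Agent/H51/Trunc/Main.lean`). -/

namespace Vale.Agent.H51.Prism

open MeasureTheory Set Matrix Vale.Agent.H68

variable {n : ℕ}

/-- the points of the prism as a union of two ranges -/
lemma range_prismPts (v : Fin (n + 1) → Fin n → ℝ) (h : Fin n → ℝ) :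
    Set.range (prismPts v h)
      = Set.range (fun i : Fin n => v i.succ)
        ∪ Set.range (fun i : Fin n => v i.succ + h i • (v 0 - v 1)) := by
  unfold prismPts
  ext x
  simp only [Set.mem_range, Set.mem_union]
  constructor
  · rintro ⟨k, rfl⟩
    refine Fin.addCases (fun i => ?_) (fun i => ?_) k
    · left
      exact ⟨i, by rw [Fin.append_left]⟩
    · right
      exact ⟨i, by rw [Fin.append_right]⟩
  · rintro (⟨i, rfl⟩ | ⟨i, rfl⟩)
    · exact ⟨Fin.castAdd n i, by rw [Fin.append_left]⟩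
    · exact ⟨Fin.natAdd n i, by rw [Fin.append_right]⟩

/-- the sum of the edge lengths is positive -/
lemma pS1_pos (hn : 0 < n) (h : Fin n → ℝ) (hh : ∀ i, 0 < h i) : 0 < pS1 h := by
  unfold pS1
  have : Nonempty (Fin n) := ⟨⟨0, hn⟩⟩
  exact Finset.sum_pos (fun i _ => hh i) Finset.univ_nonempty

/-- determinant of the matrix of cone moments -/
theorem det_prismQ (hn : 0 < n) (h : Fin n → ℝ) (hh : ∀ i, 0 < h i) :
    (prismQ h).det = ((n : ℝ) + 2) * prismFn h := by
  rw [det_prismQ_reduce, det_prismA hn h hh]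
  unfold prismFn
  ring

/-- the isotropic ratio of the prism -/
theorem isoRatio_prism (hn : 0 < n) (v : Fin (n + 1) → Fin n → ℝ) (hW : (liftMat v).det ≠ 0)
    (h : Fin n → ℝ) (hh : ∀ i, 0 < h i) :
    (covMatrix (convexHull ℝ (Set.range (prismPts v h)))).det
        / (vol (convexHull ℝ (Set.range (prismPts v h)))) ^ 2
      = cn n * (prismFn h / pS1 h ^ (n + 3)) := by
  have hH := pS1_pos hn h hh
  obtain ⟨H, hHdef⟩ : ∃ H : ℝ, H = pS1 h := ⟨_, rfl⟩
  rw [← hHdef] at hH ⊢
  have habs : 0 < |(liftMat v).det| := abs_pos.mpr hW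
  have hfac : (0:ℝ) < ((n + 2).factorial : ℝ) := by positivity
  have hMo := momentMatrix_prism hn v hW h hh
  have hMo' : momentMatrix (convexHull ℝ (Set.range (prismPts v h)))
      = (|(liftMat v).det| * H / ((n + 2).factorial : ℝ))
          • (H⁻¹ • (prismW v * prismQ h * (prismW v).transpose)) := by
    rw [hMo, smul_smul]
    congr 1
    field_simp
  have hR00 : (H⁻¹ • (prismW v * prismQ h * (prismW v).transpose)) 0 0
      = ((n : ℝ) + 1) * ((n : ℝ) + 2) := by
    rw [Matrix.smul_apply, smul_eq_mul, prismR_zero_zero, ← hHdef]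
    field_simp
  rw [isoRatio_general (prismPts v h) _ (by positivity) _ hMo' hR00,
    Matrix.det_smul, Matrix.det_mul, Matrix.det_mul, Matrix.det_transpose, det_prismW hn,
    det_prismQ hn h hh, Fintype.card_fin]
  unfold cn
  have habs2 : |(liftMat v).det| ^ 2 = (liftMat v).det ^ 2 := sq_abs _
  obtain ⟨d, hd⟩ : ∃ d : ℝ, d = |(liftMat v).det| := ⟨_, rfl⟩
  rw [← hd] at habs habs2 ⊢
  have hDD : (liftMat v).det * (((n : ℝ) + 2) * prismFn h) * (liftMat v).det
      = ((n : ℝ) + 2) * prismFn h * d ^ 2 := by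
    rw [habs2]
    ring
  rw [hDD]
  have hqq : (0:ℝ) < ((n : ℝ) + 1) * ((n : ℝ) + 2) := by positivity
  obtain ⟨q, hq'⟩ : ∃ q : ℝ, q = ((n : ℝ) + 1) * ((n : ℝ) + 2) := ⟨_, rfl⟩
  rw [← hq'] at hqq ⊢
  obtain ⟨f, hf⟩ : ∃ f : ℝ, f = ((n + 2).factorial : ℝ) := ⟨_, rfl⟩
  rw [← hf] at hfac ⊢
  have e1 : H ^ (n + 3) = H ^ (n + 1) * H ^ 2 := by ring
  rw [inv_pow, e1]
  field_simp

/-- **Prisms over a simplex with parallel edges have strictly smaller isotropic constant than
the simplex, in every dimension `n ≥ 2`.** -/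
theorem prism_main (hn : 2 ≤ n) (v : Fin (n + 1) → Fin n → ℝ) (hv : AffineIndependent ℝ v)
    (h : Fin n → ℝ) (hh : ∀ i, 0 < h i) :
    isoConst (convexHull ℝ (Set.range (prismPts v h)))
      < isoConst (convexHull ℝ (Set.range v)) := by
  have hn0 : 0 < n := by omega
  have hW := det_ne_zero_of_affineIndependent v hv
  have hH := pS1_pos hn0 h hh
  have hK := isoRatio_prism hn0 v hW h hh
  have hS : (covMatrix (convexHull ℝ (Set.range v))).det / (vol (convexHull ℝ (Set.range v))) ^ 2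
      = cn n := isoRatio_simplex v hW
  have hF := prismFn_lt hn h hh
  have hc := cn_pos n
  have hlt : cn n * (prismFn h / pS1 h ^ (n + 3)) < cn n := by
    have h6 : 0 < pS1 h ^ (n + 3) := by positivity
    have h1 : prismFn h / pS1 h ^ (n + 3) < 1 := by
      rw [div_lt_one h6]
      exact hF
    nlinarith
  have hnn : 0 ≤ (covMatrix (convexHull ℝ (Set.range (prismPts v h)))).det
      / (vol (convexHull ℝ (Set.range (prismPts v h)))) ^ 2 :=
    div_nonneg (covMatrix_det_nonneg _) (sq_nonneg _)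
  have hnpos : (0:ℝ) < (n : ℝ) := by exact_mod_cast hn0
  have he : (0:ℝ) < 1 / (2 * (n : ℝ)) := by positivity
  unfold isoConst
  rw [hS]
  rw [hK] at hnn ⊢
  exact Real.rpow_lt_rpow hnn hlt he

end Vale.Agent.H51.Prism
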